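import Mathlib

open Polynomial

namespace Vale.Agent.Lib.P266

/-- A derivation that preserves a prime ideal `I` and sends the coefficient ring into `I`
sends every element that is algebraic over the coefficient ring into `I` (residue
characteristic zero). -/
theorem eval₂_deriv_mem {k R R₀ : Type*} [CommRing k] [CommRing R] [CommRing R₀] [Algebra k R]
    (D : Derivation k R R) (I : Ideal R) (T : R₀ →+* R)
    (hT : ∀ r, D (T r) ∈ I) (a : R) (G : R₀[X]) :
    D (G.eval₂ T a) - (G.derivative.eval₂ T a) * D a ∈ I := by
  induction G using Polynomial.induction_on' with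
  | add p q hp hq =>
    have : D ((p + q).eval₂ T a) - ((p + q).derivative.eval₂ T a) * D a =
        (D (p.eval₂ T a) - (p.derivative.eval₂ T a) * D a) +
        (D (q.eval₂ T a) - (q.derivative.eval₂ T a) * D a) := by
      simp only [eval₂_add, derivative_add, map_add]; ring
    rw [this]
    exact I.add_mem hp hq
  | monomial n c =>
    rw [derivative_monomial, eval₂_monomial, eval₂_monomial]
    have h1 : D (T c * a ^ n) = T c • D (a ^ n) + a ^ n • D (T c) := D.leibniz _ _
    have h2 : D (a ^ n) = a ^ (n - 1) * (n : R) * D a := by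
      rw [Derivation.leibniz_pow]
      simp only [nsmul_eq_mul, smul_eq_mul]
      ring
    rw [h1, h2]
    have : T c • (a ^ (n - 1) * (n : R) * D a) + a ^ n • D (T c) -
        (T (c * (n : R₀)) * a ^ (n - 1)) * D a = a ^ n * D (T c) := by
      simp only [map_mul, map_natCast, smul_eq_mul]
      ring
    rw [this]
    exact I.mul_mem_left _ (hT c)

/-- Induction step: a polynomial of degree `n` with leading coefficient outside `I` vanishing at
`a` modulo `I` forces `D a ∈ I`. -/
theorem deriv_mem_of_eval₂_mem {k R R₀ : Type*} [CommRing k] [CommRing R] [CommRing R₀]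
    [Algebra k R] (D : Derivation k R R) (I : Ideal R) [I.IsPrime] (T : R₀ →+* R)
    (hchar : ∀ n : ℕ, n ≠ 0 → (n : R) ∉ I)
    (hDI : ∀ x ∈ I, D x ∈ I) (hT : ∀ r, D (T r) ∈ I) (a : R) :
    ∀ (n : ℕ) (G : R₀[X]), G.natDegree = n → T G.leadingCoeff ∉ I → G.eval₂ T a ∈ I →
      D a ∈ I := by
  intro n
  induction n with
  | zero =>
    intro G hG hlc hev
    exfalso
    rw [Polynomial.eq_C_of_natDegree_eq_zero hG] at hev
    rw [eval₂_C] at hev
    apply hlc
    rw [Polynomial.leadingCoeff, hG]
    exact hev
  | succ n ih =>
    intro G hG hlc hev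
    have h0 := eval₂_deriv_mem D I T hT a G
    have h1 : (G.derivative.eval₂ T a) * D a ∈ I := by
      have := I.sub_mem (hDI _ hev) h0
      simpa using this
    rcases Ideal.IsPrime.mem_or_mem ‹_› h1 with h2 | h2
    · have hcoeff : G.derivative.coeff n = G.leadingCoeff * ((n : R₀) + 1) := by
        rw [Polynomial.coeff_derivative, Polynomial.leadingCoeff, hG]
      have hT' : T (G.derivative.coeff n) ∉ I := by
        rw [hcoeff, map_mul]
        intro hmem
        rcases Ideal.IsPrime.mem_or_mem ‹_› hmem with h3 | h3
        · exact hlc h3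
        · apply hchar (n + 1) (Nat.succ_ne_zero n)
          simpa using h3
      have hne : G.derivative.coeff n ≠ 0 := by
        intro h
        apply hT'
        rw [h, map_zero]
        exact I.zero_mem
      have hle : G.derivative.natDegree ≤ n := by
        have := Polynomial.natDegree_derivative_lt (p := G) (by omega)
        omega
      have hdeg : G.derivative.natDegree = n := by
        apply le_antisymm hle
        exact Polynomial.le_natDegree_of_ne_zero hne
      apply ih G.derivative hdeg _ h2
      rw [Polynomial.leadingCoeff, hdeg]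
      exact hT'
    · exact h2

/-- A derivation preserving a prime ideal `I` and mapping the coefficients into `I` maps elements
integral over the coefficients into `I`. -/
theorem deriv_mem_of_isIntegralElem {k R R₀ : Type*} [CommRing k] [CommRing R] [CommRing R₀]
    [Algebra k R] (D : Derivation k R R) (I : Ideal R) [hI : I.IsPrime] (T : R₀ →+* R)
    (hchar : ∀ n : ℕ, n ≠ 0 → (n : R) ∉ I)
    (hDI : ∀ x ∈ I, D x ∈ I) (hT : ∀ r, D (T r) ∈ I) (a : R) (ha : T.IsIntegralElem a) :
    D a ∈ I := by
  obtain ⟨G, hmonic, hev⟩ := ha
  apply deriv_mem_of_eval₂_mem D I T hchar hDI hT a G.natDegree G rfl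
  · rw [hmonic.leadingCoeff, map_one]
    exact (Ideal.ne_top_iff_one I).mp hI.ne_top
  · rw [hev]
    exact I.zero_mem

end Vale.Agent.Lib.P266
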