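import Mathlib

namespace Vale.Agent.Lib.P266

/-- The derivation `E` of the `ℂ`-algebra `A` is *projectable at the ideal* `m` if there are
`d` algebraically independent elements `y 0, …, y (d - 1)` of `m` such that `A` is integral over
the polynomial subalgebra `ℂ[y]` (a Noether normalization with the point of `m` over the origin)
and `E` maps each `y i` to a polynomial in `y` without constant term, that is, `E` preserves
`ℂ[y]` and its ideal `(y)`. -/
def IsProjectableAt {A : Type*} [CommRing A] [Algebra ℂ A] (m : Ideal A)
    (E : Derivation ℂ A A) : Prop :=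
  ∃ (d : ℕ) (y : Fin d → A), AlgebraicIndependent ℂ y ∧
    (MvPolynomial.aeval y : MvPolynomial (Fin d) ℂ →ₐ[ℂ] A).toRingHom.IsIntegral ∧
    (∀ i, y i ∈ m) ∧
    ∀ i, ∃ p : MvPolynomial (Fin d) ℂ, MvPolynomial.constantCoeff p = 0 ∧
      E (y i) = MvPolynomial.aeval y p

/-- The ideal generated by the homogeneous elements of nonzero degree of a `ℤ`-graded algebra
(it cuts out the fixed scheme of the corresponding action of the multiplicative group). -/
def nonzeroDegreeIdeal {A : Type*} [CommRing A] [Algebra ℂ A] (𝒜 : ℤ → Submodule ℂ A) : Ideal A :=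
  Ideal.span {x | ∃ n : ℤ, n ≠ 0 ∧ x ∈ 𝒜 n}

end Vale.Agent.Lib.P266
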