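import Mathlib

open Polynomial

namespace Vale.Agent.Lib.P266

/-- A derivation from `P` into an étale `P`-algebra `K` extends to a derivation of `K`. -/
theorem exists_derivation_lift {k P K : Type*} [CommRing k] [CommRing P] [CommRing K] [Algebra k P]
    [Algebra k K] [Algebra P K] [IsScalarTower k P K] [Algebra.FormallyEtale P K]
    (d : Derivation k P K) :
    ∃ δ : Derivation k K K, ∀ p, δ (algebraMap P K p) = d p := by
  let e := KaehlerDifferential.tensorKaehlerEquivOfFormallyEtale k P K
  let L : TensorProduct P K (Ω[P⁄k]) →ₗ[K] K := LinearMap.liftBaseChange K d.liftKaehlerDifferential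
  refine ⟨(L ∘ₗ e.symm.toLinearMap).compDer (KaehlerDifferential.D k K), fun p => ?_⟩
  have h := KaehlerDifferential.tensorKaehlerEquivOfFormallyEtale_symm_D_algebraMap k P K p
  change L (e.symm (KaehlerDifferential.D k K (algebraMap P K p))) = d p
  rw [h]
  simp [L]

/-- A derivation of `K` mapping a subring `B` (given by an injective map) into itself restricts
to a derivation of `B`. -/
theorem exists_derivation_restrict {k B K : Type*} [CommRing k] [CommRing B] [Field K]
    [Algebra k B] [Algebra k K] [Algebra B K] [IsScalarTower k B K]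
    (hinj : Function.Injective (algebraMap B K)) (δ : Derivation k K K)
    (h : ∀ b : B, δ (algebraMap B K b) ∈ (algebraMap B K).range) :
    ∃ D : Derivation k B B, ∀ b, algebraMap B K (D b) = δ (algebraMap B K b) := by
  choose f hf using h
  have hsm : ∀ (c : k) (x : B), algebraMap B K (c • x) = c • algebraMap B K x := by
    intro c x
    rw [Algebra.smul_def, map_mul, ← IsScalarTower.algebraMap_apply, ← Algebra.smul_def]
  let L : B →ₗ[k] B :=
    { toFun := f
      map_add' := fun a b => hinj (by simp [hf])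
      map_smul' := fun c a => hinj (by
        rw [hf, RingHom.id_apply, hsm, Derivation.map_smul, hsm, hf]) }
  refine ⟨Derivation.mk' L (fun a b => hinj ?_), fun b => hf b⟩
  simp only [L, smul_eq_mul, map_add, map_mul, hf, LinearMap.coe_mk, AddHom.coe_mk]
  rw [Derivation.leibniz]
  simp [smul_eq_mul]

/-- Common denominators on a finite type algebra. -/
theorem exists_common_denominator {k A K : Type*} [CommRing k] [CommRing A] [Field K]
    [Algebra k A] [Algebra k K] [Algebra A K] [IsScalarTower k A K] [Algebra.FiniteType k A]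
    (δ : Derivation k K K) (S : Submonoid A)
    (h : ∀ a : A, ∃ s ∈ S, ∃ b : A, algebraMap A K s * δ (algebraMap A K a) = algebraMap A K b) :
    ∃ s ∈ S, ∀ a : A, ∃ b : A, algebraMap A K s * δ (algebraMap A K a) = algebraMap A K b := by
  classical
  obtain ⟨gens, hgens⟩ := Algebra.FiniteType.out (R := k) (A := A)
  choose f hfS g hg using h
  refine ⟨∏ x ∈ gens, f x, S.prod_mem (fun x _ => hfS x), ?_⟩
  set s := ∏ x ∈ gens, f x with hs
  intro a
  have ha : a ∈ Algebra.adjoin k (gens : Set A) := by rw [hgens]; exact Algebra.mem_top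
  induction ha using Algebra.adjoin_induction with
  | mem x hx =>
    have hdvd : f x ∣ s := Finset.dvd_prod_of_mem f hx
    obtain ⟨c, hc⟩ := hdvd
    refine ⟨c * g x, ?_⟩
    rw [hc, map_mul, map_mul, ← hg x]
    ring
  | algebraMap c =>
    refine ⟨0, ?_⟩
    have : algebraMap A K (algebraMap k A c) = algebraMap k K c :=
      (IsScalarTower.algebraMap_apply k A K c).symm
    rw [this, Derivation.map_algebraMap]
    simp
  | add x y _ _ hx hy =>
    obtain ⟨b1, h1⟩ := hx
    obtain ⟨b2, h2⟩ := hy
    refine ⟨b1 + b2, ?_⟩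
    rw [map_add, map_add, map_add, mul_add, h1, h2]
  | mul x y _ _ hx hy =>
    obtain ⟨b1, h1⟩ := hx
    obtain ⟨b2, h2⟩ := hy
    refine ⟨x * b2 + y * b1, ?_⟩
    rw [map_mul, Derivation.leibniz, map_add, map_mul, map_mul, ← h1, ← h2]
    simp only [smul_eq_mul]
    ring

/-- The bound on the pole order of a lifted derivation along a divisor: if `u = π ^ e · unit`,
`δ` maps `u` and the set `T` into the discrete valuation ring `R`, and the residue field has no
derivation killing `T` (hypothesis `hres`), then `π ^ (e - 1) δ` maps `R` into `R`. -/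
theorem pole_bound {k R K : Type*} [CommRing k] [CommRing R] [IsDomain R]
    [IsDiscreteValuationRing R] [Field K] [Algebra k R] [Algebra k K] [Algebra R K]
    [IsFractionRing R K] [IsScalarTower k R K] (δ : Derivation k K K) (π : R)
    (hπ : Irreducible π) (hchar : ∀ n : ℕ, n ≠ 0 → IsUnit (n : R)) (T : Set R)
    (hδT : ∀ t ∈ T, δ (algebraMap R K t) ∈ (algebraMap R K).range)
    (hres : ∀ D : Derivation k R R, (∀ x, π ∣ x → π ∣ D x) → (∀ t ∈ T, π ∣ D t) → ∀ r, π ∣ D r)
    (u : R) (huT : u ∈ T) (e : ℕ) (he : 1 ≤ e) (hu : Associated (π ^ e) u)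
    (hk : ∃ n : ℕ, ∀ r : R, algebraMap R K π ^ n * δ (algebraMap R K r) ∈ (algebraMap R K).range) :
    ∀ r : R, algebraMap R K π ^ (e - 1) * δ (algebraMap R K r) ∈ (algebraMap R K).range := by
  classical
  have hinj : Function.Injective (algebraMap R K) := IsFractionRing.injective R K
  have hπ0 : π ≠ 0 := hπ.ne_zero
  have hπK : algebraMap R K π ≠ 0 := by
    intro h
    exact hπ0 (hinj (by simpa using h))
  by_contra hcon
  set n0 := Nat.find hk with hn0
  have hn0spec : ∀ r : R, algebraMap R K π ^ n0 * δ (algebraMap R K r) ∈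
      (algebraMap R K).range := Nat.find_spec hk
  have hlt : e ≤ n0 := by
    by_contra hlt
    push Not at hlt
    apply hcon
    intro r
    obtain ⟨b, hb⟩ := hn0spec r
    refine ⟨π ^ (e - 1 - n0) * b, ?_⟩
    rw [map_mul, hb, map_pow, ← mul_assoc, ← pow_add]
    congr 2
    omega
  have hn0pos : 1 ≤ n0 := le_trans he hlt
  let c : K := algebraMap R K π ^ n0
  obtain ⟨D, hD⟩ := exists_derivation_restrict hinj (c • δ) (fun b => by
    obtain ⟨b', hb'⟩ := hn0spec b
    refine ⟨b', ?_⟩
    rw [hb']
    simp [c, Derivation.smul_apply])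
  have hDval : ∀ t v : R, δ (algebraMap R K t) = algebraMap R K v → D t = π ^ n0 * v := by
    intro t v h
    apply hinj
    rw [hD, Derivation.smul_apply, h]
    simp [c]
  -- `D u` is divisible by `π ^ e`.
  obtain ⟨vu, hvu⟩ := hδT u huT
  have hDu : π ^ e ∣ D u := by
    rw [hDval u vu hvu.symm]
    exact Dvd.dvd.mul_right (pow_dvd_pow π hlt) vu
  obtain ⟨w, hw⟩ := hu
  obtain ⟨e', rfl⟩ : ∃ e', e = e' + 1 := ⟨e - 1, by omega⟩
  -- `π ∣ D π`.
  have hDπ : π ∣ D π := by
    have h1 : D u = π ^ (e' + 1) * D (w : R) + (w : R) * (((e' + 1 : ℕ) : R) * π ^ e' * D π) := by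
      rw [← hw, Derivation.leibniz, Derivation.leibniz_pow]
      simp only [smul_eq_mul, nsmul_eq_mul, add_tsub_cancel_right]
      ring
    have h2 : π ^ (e' + 1) ∣ (w : R) * (((e' + 1 : ℕ) : R) * π ^ e' * D π) := by
      have h3 := (dvd_add_right (a := π ^ (e' + 1)) (b := π ^ (e' + 1) * D (w : R))
        (c := (w : R) * (((e' + 1 : ℕ) : R) * π ^ e' * D π)) (Dvd.intro _ rfl)).mp
      apply h3
      rw [← h1]
      exact hDu
    have h4 : (w : R) * (((e' + 1 : ℕ) : R) * π ^ e' * D π) =
        π ^ e' * ((w : R) * ((e' + 1 : ℕ) : R) * D π) := by ring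
    rw [h4, pow_succ] at h2
    have h5 : π ∣ (w : R) * ((e' + 1 : ℕ) : R) * D π :=
      (mul_dvd_mul_iff_left (pow_ne_zero e' hπ0)).mp h2
    have hu1 : IsUnit ((w : R) * ((e' + 1 : ℕ) : R)) :=
      w.isUnit.mul (hchar _ (Nat.succ_ne_zero e'))
    exact (hu1.dvd_mul_left).mp h5
  have hDπx : ∀ x, π ∣ x → π ∣ D x := by
    rintro x ⟨y, rfl⟩
    rw [Derivation.leibniz]
    simp only [smul_eq_mul]
    exact dvd_add (Dvd.intro _ rfl) (Dvd.dvd.mul_left hDπ y)
  have hDT : ∀ t ∈ T, π ∣ D t := by
    intro t ht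
    obtain ⟨v, hv⟩ := hδT t ht
    rw [hDval t v hv.symm]
    exact Dvd.dvd.mul_right (dvd_pow_self π (by omega)) v
  have hall := hres D hDπx hDT
  -- Contradiction with the minimality of `n0`.
  have hn0m : ∀ r : R, algebraMap R K π ^ (n0 - 1) * δ (algebraMap R K r) ∈
      (algebraMap R K).range := by
    intro r
    obtain ⟨r', hr'⟩ := hall r
    refine ⟨r', ?_⟩
    have h6 := hD r
    rw [hr', Derivation.smul_apply, map_mul] at h6
    have h7 : algebraMap R K π ^ n0 = algebraMap R K π * algebraMap R K π ^ (n0 - 1) := by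
      rw [← pow_succ']
      congr 1
      omega
    simp only [c, smul_eq_mul] at h6
    rw [h7, mul_assoc] at h6
    exact mul_left_cancel₀ hπK h6
  exact Nat.find_min hk (m := n0 - 1) (by omega) hn0m

end Vale.Agent.Lib.P266
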