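import Mathlib

open IsLocalRing

universe u

namespace Vale.Agent.Lib.P266

/-- An element whose derivative is a unit is a nonzerodivisor (residue characteristic zero). -/
theorem mem_nonZeroDivisors_of_deriv_unit {B R : Type*} [CommRing B] [CommRing R] [Algebra B R]
    [IsNoetherianRing R]
    (hchar : ∀ n : ℕ, n ≠ 0 → IsUnit (n : R)) (D : Derivation B R R) (x : R)
    (hx : IsUnit (D x)) : x ∈ nonZeroDivisors R := by
  let f : ℕ →o Submodule R R :=
    { toFun := fun n => LinearMap.ker (LinearMap.mulLeft R (x ^ n))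
      monotone' := by
        apply monotone_nat_of_le_succ
        intro n w hw
        simp only [LinearMap.mem_ker, LinearMap.mulLeft_apply] at hw ⊢
        rw [pow_succ, mul_comm (x ^ n) x, mul_assoc, hw, mul_zero] }
  obtain ⟨N, hN⟩ := monotone_stabilizes_iff_noetherian.mpr (inferInstance : IsNoetherian R R) f
  have hmem : ∀ n w, w ∈ f n ↔ x ^ n * w = 0 := fun n w => by
    simp [f, LinearMap.mem_ker]
  -- stability of `f N` under `D`
  have hD : ∀ w, w ∈ f N → D w ∈ f N := by
    intro w hw
    rw [hN (N + 1) (Nat.le_succ N), hmem]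
    have h1 : x ^ N * w = 0 := (hmem N w).mp hw
    have h2 : D (x ^ N * w) = 0 := by rw [h1, map_zero]
    rw [Derivation.leibniz, Derivation.leibniz_pow] at h2
    simp only [smul_eq_mul, nsmul_eq_mul] at h2
    have h3 : x ^ (N + 1) * D w = x * (x ^ N * D w + w * (↑N * (x ^ (N - 1) * D x))) -
        (D x) * (N : R) * (x ^ N * w) := by
      rcases N with _ | n
      · simp
      · simp only [Nat.add_sub_cancel]
        ring
    rw [h3, h1, h2]
    ring
  -- descent
  have hdesc : ∀ l : ℕ, (∀ w, w ∈ f N → x ^ (l + 1) * w = 0) → ∀ w, w ∈ f N → x ^ l * w = 0 := by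
    intro l hl w hw
    have h1 := hl w hw
    have h2 : D (x ^ (l + 1) * w) = 0 := by rw [h1, map_zero]
    rw [Derivation.leibniz, Derivation.leibniz_pow] at h2
    simp only [smul_eq_mul, nsmul_eq_mul, Nat.add_sub_cancel] at h2
    rw [hl (D w) (hD w hw), zero_add] at h2
    have hu : IsUnit (((l + 1 : ℕ) : R) * D x) := (hchar _ (Nat.succ_ne_zero l)).mul hx
    have h3 : ((l + 1 : ℕ) : R) * D x * (x ^ l * w) = 0 := by
      rw [← h2]
      ring
    exact hu.mul_right_eq_zero.mp h3
  have hzero : ∀ l : ℕ, (∀ w, w ∈ f N → x ^ l * w = 0) → ∀ w, w ∈ f N → w = 0 := by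
    intro l
    induction l with
    | zero =>
      intro h w hw
      simpa using h w hw
    | succ l ih =>
      intro h
      exact ih (hdesc l h)
  have hall : ∀ w, w ∈ f N → w = 0 := hzero N (fun w hw => (hmem N w).mp hw)
  rw [mem_nonZeroDivisors_iff_right]
  intro a ha
  -- `a * x = 0`
  apply hall
  have hle : f 1 ≤ f (max 1 N) := f.monotone (le_max_left _ _)
  rw [hN (max 1 N) (le_max_right _ _)]
  apply hle
  rw [hmem, pow_one, mul_comm]
  exact ha

theorem mk_mem_maximalIdeal {R : Type*} [CommRing R] [IsLocalRing R] (I : Ideal R)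
    [IsLocalRing (R ⧸ I)] (hI : I ≠ ⊤) (a : R) (ha : a ∈ maximalIdeal R) :
    Ideal.Quotient.mk I a ∈ maximalIdeal (R ⧸ I) := by
  rw [IsLocalRing.mem_maximalIdeal, mem_nonunits_iff]
  intro hu
  obtain ⟨v, hv⟩ := hu.exists_right_inv
  obtain ⟨b, rfl⟩ := Ideal.Quotient.mk_surjective v
  rw [← map_mul, ← map_one (Ideal.Quotient.mk I), Ideal.Quotient.eq] at hv
  have hm : a * b - 1 ∈ maximalIdeal R := le_maximalIdeal hI hv
  have h1 : (1 : R) ∈ maximalIdeal R := by
    have := Ideal.sub_mem _ (Ideal.mul_mem_right b _ ha) hm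
    simpa using this
  exact (Ideal.ne_top_iff_one _).mp (maximalIdeal.isMaximal R).ne_top h1

/-- The dimension drop along elements with independent derivatives. -/
theorem ringKrullDim_quotient_add_le (B : Type*) [CommRing B] (k : ℕ) :
    ∀ (R : Type u) [CommRing R] [Algebra B R] [IsNoetherianRing R] [IsLocalRing R]
      (_ : ∀ n : ℕ, n ≠ 0 → IsUnit (n : R)) (z : Fin k → R) (D : Fin k → Derivation B R R),
      (∀ j, z j ∈ maximalIdeal R) →
      (∀ i j, D i (z j) - (if i = j then 1 else 0) ∈ maximalIdeal R) →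
      ringKrullDim (R ⧸ Ideal.span (Set.range z)) + (k : WithBot ℕ∞) ≤ ringKrullDim R := by
  induction k with
  | zero =>
    intro R _ _ _ _ _ z D _ _
    have hz : Ideal.span (Set.range z) = ⊥ := by
      rw [Set.range_eq_empty z, Ideal.span_empty]
    rw [hz, ringKrullDim_eq_of_ringEquiv (RingEquiv.quotientBot R)]
    simp
  | succ k ih =>
    intro R _ _ _ _ hchar z D hz hD
    set x := z 0 with hxdef
    have hxm : x ∈ maximalIdeal R := hz 0
    have hu1 : D 0 x - 1 ∈ maximalIdeal R := by simpa using hD 0 0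
    have hunit : IsUnit (D 0 x) := by
      by_contra hnu
      have h1 : D 0 x ∈ maximalIdeal R := (IsLocalRing.mem_maximalIdeal _).mpr hnu
      have h2 : (1 : R) ∈ maximalIdeal R := by
        have := Ideal.sub_mem _ h1 hu1
        simpa using this
      exact (Ideal.ne_top_iff_one _).mp (maximalIdeal.isMaximal R).ne_top h2
    obtain ⟨uu, huu⟩ := hunit
    have hNZD : x ∈ nonZeroDivisors R :=
      mem_nonZeroDivisors_of_deriv_unit hchar (D 0) x ⟨uu, huu⟩
    let I : Ideal R := Ideal.span {x}
    have hIle : I ≤ maximalIdeal R := by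
      rw [Ideal.span_singleton_le_iff_mem]
      exact hxm
    have hItop : I ≠ ⊤ := fun h => (maximalIdeal.isMaximal R).ne_top (top_le_iff.mp (h ▸ hIle))
    have _ : Nontrivial (R ⧸ I) := Ideal.Quotient.nontrivial_iff.mpr hItop
    have _ : IsLocalRing (R ⧸ I) :=
      IsLocalRing.of_surjective' (Ideal.Quotient.mk I) Ideal.Quotient.mk_surjective
    let Δ : Fin k → Derivation B R R := fun i =>
      D i.succ - (D i.succ x * ((uu⁻¹ : Rˣ) : R)) • D 0
    have hΔx : ∀ i, Δ i x = 0 := by
      intro i
      simp only [Δ, Derivation.coe_sub, Pi.sub_apply, Derivation.smul_apply, smul_eq_mul]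
      rw [← huu, mul_assoc, Units.inv_mul, mul_one, sub_self]
    have hΔI : ∀ i a, a ∈ I → Δ i a ∈ I := by
      intro i a ha
      obtain ⟨b, rfl⟩ := Ideal.mem_span_singleton'.mp ha
      rw [Derivation.leibniz, hΔx]
      simp only [smul_eq_mul, mul_zero, zero_add]
      exact Ideal.mul_mem_right _ _ (Ideal.mem_span_singleton_self x)
    have hlift : ∀ i, ∃ D' : Derivation B (R ⧸ I) (R ⧸ I),
        ∀ a, D' (Ideal.Quotient.mk I a) = Ideal.Quotient.mk I (Δ i a) := by
      intro i
      have hd : ∀ a, (Ideal.Quotient.mkₐ B I) a = 0 →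
          (Ideal.Quotient.mkₐ B I) ((Δ i) a) = 0 := by
        intro a ha
        have ha' : a ∈ I := by
          rw [← Ideal.Quotient.eq_zero_iff_mem]
          exact ha
        exact Ideal.Quotient.eq_zero_iff_mem.mpr (hΔI i a ha')
      refine ⟨Derivation.liftOfSurjective (f := Ideal.Quotient.mkₐ B I)
        Ideal.Quotient.mk_surjective (d := Δ i) hd, fun a => ?_⟩
      exact Derivation.liftOfSurjective_apply _ hd a
    choose D' hD' using hlift
    let z' : Fin k → R ⧸ I := fun j => Ideal.Quotient.mk I (z j.succ)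
    have hcharI : ∀ n : ℕ, n ≠ 0 → IsUnit (n : R ⧸ I) := by
      intro n hn
      have := (hchar n hn).map (Ideal.Quotient.mk I)
      simpa using this
    have hih := ih (R ⧸ I) hcharI z' D'
      (fun j => mk_mem_maximalIdeal I hItop _ (hz _))
      (fun i j => by
        have h1 : Δ i (z j.succ) - (if i = j then 1 else 0) ∈ maximalIdeal R := by
          have h2 := hD i.succ j.succ
          have h3 := hD i.succ 0
          simp only [Fin.succ_inj] at h2
          rw [if_neg (Fin.succ_ne_zero i), sub_zero] at h3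
          simp only [Δ, Derivation.coe_sub, Pi.sub_apply, Derivation.smul_apply, smul_eq_mul]
          have h4 : D i.succ (z j.succ) - D i.succ x * ((uu⁻¹ : Rˣ) : R) * D 0 (z j.succ) -
              (if i = j then 1 else 0) = (D i.succ (z j.succ) - (if i = j then 1 else 0)) -
              (D i.succ x) * (((uu⁻¹ : Rˣ) : R) * D 0 (z j.succ)) := by ring
          rw [h4]
          exact Ideal.sub_mem _ h2 (Ideal.mul_mem_right _ _ h3)
        have h5 := mk_mem_maximalIdeal I hItop _ h1
        simp only [map_sub] at h5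
        change D' i (Ideal.Quotient.mk I (z j.succ)) - _ ∈ _
        rw [hD' i]
        by_cases hij : i = j
        · simpa only [hij, if_true, map_one] using h5
        · simpa only [hij, if_false, map_zero] using h5)
    -- identify the double quotient
    let J : Ideal R := Ideal.span (Set.range fun j : Fin k => z j.succ)
    have hmap : Ideal.span (Set.range z') = J.map (Ideal.Quotient.mk I) := by
      rw [Ideal.map_span, ← Set.range_comp]
      rfl
    have hsup : I ⊔ J = Ideal.span (Set.range z) := by
      apply le_antisymm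
      · apply sup_le
        · rw [Ideal.span_singleton_le_iff_mem]
          exact Ideal.subset_span ⟨0, rfl⟩
        · apply Ideal.span_mono
          rintro _ ⟨j, rfl⟩
          exact ⟨j.succ, rfl⟩
      · rw [Ideal.span_le]
        rintro _ ⟨j, rfl⟩
        refine Fin.cases ?_ (fun j' => ?_) j
        · exact Ideal.mem_sup_left (Ideal.mem_span_singleton_self x)
        · exact Ideal.mem_sup_right (Ideal.subset_span ⟨j', rfl⟩)
    have hequiv : ringKrullDim ((R ⧸ I) ⧸ Ideal.span (Set.range z')) =
        ringKrullDim (R ⧸ Ideal.span (Set.range z)) := by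
      rw [hmap, ← hsup]
      exact ringKrullDim_eq_of_ringEquiv (DoubleQuot.quotQuotEquivQuotSup I J)
    rw [hequiv] at hih
    have hdrop : ringKrullDim (R ⧸ I) + 1 ≤ ringKrullDim R :=
      ringKrullDim_quotient_succ_le_of_nonZeroDivisor hNZD
    calc ringKrullDim (R ⧸ Ideal.span (Set.range z)) + ((k + 1 : ℕ) : WithBot ℕ∞)
        = (ringKrullDim (R ⧸ Ideal.span (Set.range z)) + (k : WithBot ℕ∞)) + 1 := by
          push_cast
          rw [add_assoc]
      _ ≤ ringKrullDim (R ⧸ I) + 1 := by gcongr
      _ ≤ ringKrullDim R := hdrop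

end Vale.Agent.Lib.P266
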