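import Vale.Agent.Lib.P266.Poly

open Polynomial

namespace Vale.Agent.Lib.P266

section Abstract

variable {k A F K : Type*} [Field k] [CharZero k] [IsAlgClosed k] {d : ℕ}
  [CommRing A] [IsDomain A] [IsIntegrallyClosed A] [IsNoetherianRing A] [Algebra k A]
  [Algebra.FiniteType k A] [Algebra (MvPolynomial (Fin d) k) A]
  [FaithfulSMul (MvPolynomial (Fin d) k) A] [Algebra.IsIntegral (MvPolynomial (Fin d) k) A]
  [Field K] [Algebra A K] [IsFractionRing A K]
  [Algebra k K] [IsScalarTower k A K] [Algebra (MvPolynomial (Fin d) k) K]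
  [IsScalarTower (MvPolynomial (Fin d) k) A K]
  [Field F] [Algebra (MvPolynomial (Fin d) k) F] [IsFractionRing (MvPolynomial (Fin d) k) F]
  [Algebra F K] [IsScalarTower (MvPolynomial (Fin d) k) F K] [FiniteDimensional F K]
  [Algebra.FormallyEtale (MvPolynomial (Fin d) k) K]
  [IsScalarTower k (MvPolynomial (Fin d) k) A]

include F K in
theorem eval_omega_eq_zero_abs (y : Fin d → A)
    (hPA : ∀ p : MvPolynomial (Fin d) k, algebraMap (MvPolynomial (Fin d) k) A p =
      MvPolynomial.aeval y p)
    (E : Derivation k A A)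
    (hE : ∀ i, ∃ p : MvPolynomial (Fin d) k, MvPolynomial.constantCoeff p = 0 ∧
      E (y i) = MvPolynomial.aeval y p)
    (ev : A →ₐ[k] k) (hev : ∀ i, ev (y i) = 0)
    (ω : Derivation k A A →ₗ[A] A) : ev (ω E) = 0 := by
  by_contra hne
  let ε : MvPolynomial (Fin d) k →+* k := MvPolynomial.constantCoeff
  have hεsurj : ∀ z : k, ∃ p, ε p = z := fun z => ⟨MvPolynomial.C z, by simp [ε]⟩
  have hevP : ∀ p, (ev : A →+* k) (algebraMap (MvPolynomial (Fin d) k) A p) = ε p := by
    intro p
    rw [hPA]
    induction p using MvPolynomial.induction_on with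
    | C c => simp [ε]
    | add p q hp hq => simp only [map_add, hp, hq]
    | mul_X p i hp =>
      simp only [map_mul, hp]
      simp [ε, hev]
  have hmaxε : (RingHom.ker ε).IsMaximal :=
    RingHom.ker_isMaximal_of_surjective ε (fun z => hεsurj z)
  have hevsurj : Function.Surjective (ev : A →+* k) := fun z => ⟨algebraMap k A z, by simp⟩
  have hmaxev : (RingHom.ker (ev : A →+* k)).IsMaximal :=
    RingHom.ker_isMaximal_of_surjective _ hevsurj
  let J : Ideal A := Ideal.map (algebraMap (MvPolynomial (Fin d) k) A) (RingHom.ker ε)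
  have hQ : ∀ Q : Ideal A, Q.IsPrime → J ≤ Q →
      Q.comap (algebraMap (MvPolynomial (Fin d) k) A) = RingHom.ker ε := by
    intro Q hQ hJQ
    have hle : RingHom.ker ε ≤ Q.comap (algebraMap (MvPolynomial (Fin d) k) A) :=
      Ideal.map_le_iff_le_comap.mp hJQ
    exact (hmaxε.eq_of_le (Ideal.comap_ne_top _ hQ.ne_top) hle).symm
  have hJ : ∀ Q : Ideal A, Q.IsPrime → J ≤ Q → Q.IsMaximal := by
    intro Q hQp hJQ
    have : (Q.comap (algebraMap (MvPolynomial (Fin d) k) A)).IsMaximal := by
      rw [hQ Q hQp hJQ]
      exact hmaxε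
    exact Ideal.isMaximal_of_isIntegral_of_isMaximal_comap Q this
  obtain ⟨a, ham, ha⟩ := exists_separating J (RingHom.ker (ev : A →+* k)) hJ
  have hevc : (ev : A →+* k) (a * ω E) ≠ 0 := by
    rw [map_mul]
    refine mul_ne_zero (fun h => ham ((RingHom.mem_ker).mpr h)) hne
  have hother : ∀ Q : Ideal A, Q.IsPrime →
      Q.comap (algebraMap (MvPolynomial (Fin d) k) A) = RingHom.ker ε →
      Q ≠ RingHom.ker (ev : A →+* k) → a * ω E ∈ Q := by
    intro Q hQp hQc hQne
    have hJQ : J ≤ Q := by
      rw [Ideal.map_le_iff_le_comap, hQc]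
    exact Ideal.mul_mem_right _ _ (ha Q hQp hJQ hQne)
  have hsep := nextCoeff_ne_zero_of_separation ε (ev : A →+* k) hevP hεsurj (a * ω E) hevc hother
  obtain ⟨g, hg0, hg⟩ := trace_omega_mem (F := F) (K := K) y hPA E hE (a • ω)
  obtain ⟨N, hN0, hN⟩ := trace_algebraMap_eq (P := MvPolynomial (Fin d) k) (F := F) (K := K)
    (a * ω E) (Algebra.IsIntegral.isIntegral _)
  have hva : (a • ω) E = a * ω E := by
    simp [LinearMap.smul_apply]
  rw [hva] at hg
  rw [hg] at hN
  have heq := IsFractionRing.injective (MvPolynomial (Fin d) k) F hN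
  have h1 : ε g = 0 := hg0
  rw [heq, map_mul, map_neg, map_natCast, mul_neg, neg_eq_zero] at h1
  rcases mul_eq_zero.mp h1 with h2 | h2
  · exact hN0 (by exact_mod_cast h2)
  · exact hsep h2

end Abstract

open nonZeroDivisors in
/-- **Trace lemma.** Let `A` be a normal finitely generated algebra over an algebraically closed
field `k` of characteristic zero, finite over a polynomial subring `k[y_1, …, y_d]`. If the
derivation `E` preserves `k[y]` and its maximal ideal `(y)`, then every `A`-linear form on
`Der_k(A)` takes at `E` a value vanishing at every point lying over the origin of `k^d`. -/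
theorem eval_omega_eq_zero {k A : Type*} [Field k] [CharZero k] [IsAlgClosed k] {d : ℕ}
    [CommRing A] [IsDomain A] [IsIntegrallyClosed A] [Algebra k A] [Algebra.FiniteType k A]
    (y : Fin d → A) (hy : AlgebraicIndependent k y)
    (hint : (MvPolynomial.aeval y : MvPolynomial (Fin d) k →ₐ[k] A).toRingHom.IsIntegral)
    (E : Derivation k A A)
    (hE : ∀ i, ∃ p : MvPolynomial (Fin d) k, MvPolynomial.constantCoeff p = 0 ∧
      E (y i) = MvPolynomial.aeval y p)
    (ev : A →ₐ[k] k) (hev : ∀ i, ev (y i) = 0)
    (ω : Derivation k A A →ₗ[A] A) : ev (ω E) = 0 := by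
  have hnoeth : IsNoetherianRing A := Algebra.FiniteType.isNoetherianRing k A
  let P := MvPolynomial (Fin d) k
  let φ : P →+* A := (MvPolynomial.aeval y : P →ₐ[k] A).toRingHom
  let _ : Algebra P A := φ.toAlgebra
  have hPA : ∀ p : P, algebraMap P A p = MvPolynomial.aeval y p := fun p => rfl
  have hinjφ : Function.Injective (algebraMap P A) := hy
  have _ : FaithfulSMul P A := (faithfulSMul_iff_algebraMap_injective P A).mpr hinjφ
  have _ : IsScalarTower k P A := IsScalarTower.of_algebraMap_eq (fun c => by
    rw [hPA]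
    change algebraMap k A c = MvPolynomial.aeval y (MvPolynomial.C c)
    simp)
  have hPint : Algebra.IsIntegral P A := ⟨hint⟩
  let K := FractionRing A
  let F := FractionRing P
  have _ : IsScalarTower P A K := inferInstance
  have _ : FaithfulSMul P K := (faithfulSMul_iff_algebraMap_injective P K).mpr (by
    rw [IsScalarTower.algebraMap_eq P A K]
    exact (IsFractionRing.injective A K).comp hinjφ)
  let _ : Algebra F K := FractionRing.liftAlgebra P K
  have _ : IsScalarTower P F K := FractionRing.isScalarTower_liftAlgebra P K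
  have _ : Algebra.FiniteType P A := Algebra.FiniteType.of_restrictScalars_finiteType k P A
  have _ : Module.Finite P A := Algebra.IsIntegral.finite
  have _ : IsIntegralClosure A P K := IsIntegralClosure.of_isIntegrallyClosed A P K
  have _ : Algebra.IsAlgebraic F K := isAlgebraic_of_isFractionRing P A F K
  have _ : IsLocalization (Algebra.algebraMapSubmonoid A P⁰) K :=
    IsIntegralClosure.isLocalization _ F _ _
  have _ : FiniteDimensional F K := .of_isLocalization P A P⁰
  have _ : CharZero F := charZero_of_injective_algebraMap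
    (FaithfulSMul.algebraMap_injective k F)
  have _ : Algebra.IsSeparable F K := Algebra.IsAlgebraic.isSeparable_of_perfectField
  have _ : Algebra.FormallyEtale F K := Algebra.FormallyEtale.of_isSeparable F K
  have _ : Algebra.FormallyEtale P F := Algebra.FormallyEtale.of_isLocalization P⁰
  have _ : Algebra.FormallyEtale P K := Algebra.FormallyEtale.comp P F K
  exact eval_omega_eq_zero_abs (F := F) (K := K) y hPA E hE ev hev ω

end Vale.Agent.Lib.P266
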