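import Vale.Agent.Lib.P266.Local

open Polynomial

namespace Vale.Agent.Lib.P266

section UFD

variable {P F : Type*} [CommRing P] [IsDomain P] [UniqueFactorizationMonoid P] [Field F]
  [Algebra P F] [IsFractionRing P F]

/-- In a unique factorization domain an element of the fraction field with no prime in its
denominator is integral. -/
theorem mem_range_of_forall_prime (g : F)
    (h : ∀ u : P, Prime u → ∃ t : P, ¬ u ∣ t ∧ ∃ w : P,
      algebraMap P F t * g = algebraMap P F w) :
    ∃ p : P, g = algebraMap P F p := by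
  obtain ⟨a, b, hab, rfl⟩ := IsFractionRing.exists_reduced_fraction (A := P) g
  have hb0 : (b : P) ≠ 0 := nonZeroDivisors.ne_zero b.2
  by_cases hbu : IsUnit (b : P)
  · obtain ⟨bu, hbu⟩ := hbu
    refine ⟨a * ((bu⁻¹ : Pˣ) : P), ?_⟩
    rw [IsFractionRing.mk'_eq_div, map_mul, div_eq_iff]
    · rw [mul_assoc, ← map_mul, ← hbu, Units.inv_mul, map_one, mul_one]
    · exact (map_ne_zero_iff _ (IsFractionRing.injective P F)).mpr hb0
  · exfalso
    obtain ⟨u, hu, hub⟩ := WfDvdMonoid.exists_irreducible_factor hbu hb0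
    have hup : Prime u := UniqueFactorizationMonoid.irreducible_iff_prime.mp hu
    obtain ⟨t, ht, w, hw⟩ := h u hup
    have hbF : algebraMap P F (b : P) ≠ 0 :=
      (map_ne_zero_iff _ (IsFractionRing.injective P F)).mpr hb0
    rw [IsFractionRing.mk'_eq_div] at hw
    have h1 : t * a = (b : P) * w := by
      apply IsFractionRing.injective P F
      rw [map_mul, map_mul, ← hw]
      field_simp
    have h2 : u ∣ t * a := by
      rw [h1]
      exact Dvd.dvd.mul_right hub w
    have h3 : u ∣ a := (hup.dvd_or_dvd h2).resolve_left ht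
    exact hup.not_isUnit (hab h3 hub)

end UFD

section Trace

variable {k P A F K : Type*} [Field k] [CharZero k] [CommRing P] [IsDomain P]
  [UniqueFactorizationMonoid P] [IsIntegrallyClosed P] [CommRing A]
  [IsDomain A] [IsIntegrallyClosed A]
  [IsNoetherianRing A] [Algebra k A] [Algebra.FiniteType k A] [Algebra P A]
  [FaithfulSMul P A] [Algebra.IsIntegral P A] [Field K] [Algebra A K] [IsFractionRing A K]
  [Algebra k K] [IsScalarTower k A K] [Algebra P K] [IsScalarTower P A K]
  [Field F] [Algebra P F] [IsFractionRing P F] [Algebra F K] [IsScalarTower P F K]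
  [FiniteDimensional F K]

/-- The trace of the value of a linear form `ω` on a rational derivation `δ` preserving `P`,
with `s δ = D` a derivation of `A`, lies in `P`. -/
theorem trace_mem_range (δ : Derivation k K K)
    (hδP : ∀ p : P, δ (algebraMap P K p) ∈ (algebraMap P K).range)
    (D : Derivation k A A) (s : A) (hs : s ≠ 0)
    (hD : ∀ a, algebraMap A K (D a) = algebraMap A K s * δ (algebraMap A K a))
    (ω : Derivation k A A →ₗ[A] A) :
    ∃ g : P, Algebra.trace F K (algebraMap A K (ω D) / algebraMap A K s) = algebraMap P F g := by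
  have hAKinj : Function.Injective (algebraMap A K) := IsFractionRing.injective A K
  have hPAinj : Function.Injective (algebraMap P A) := FaithfulSMul.algebraMap_injective P A
  set ξ := algebraMap A K (ω D) / algebraMap A K s with hξ
  apply mem_range_of_forall_prime
  intro u hu
  have hprime : (Ideal.span {u}).IsPrime := (Ideal.span_singleton_prime hu.ne_zero).mpr hu
  -- the denominator ideal
  let I : Ideal A :=
    { carrier := {x | ∃ y, algebraMap A K x * (algebraMap P K u * ξ) = algebraMap A K y}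
      add_mem' := by
        rintro a b ⟨y1, h1⟩ ⟨y2, h2⟩
        exact ⟨y1 + y2, by rw [map_add, add_mul, h1, h2, map_add]⟩
      zero_mem' := ⟨0, by simp⟩
      smul_mem' := by
        rintro c a ⟨y, h⟩
        exact ⟨c * y, by
          rw [smul_eq_mul, map_mul, mul_assoc, h, map_mul]⟩ }
  have hex : ∃ t : P, t ∉ Ideal.span {u} ∧ algebraMap P A t ∈ I := by
    by_contra hcon
    push Not at hcon
    have hle : I.comap (algebraMap P A) ≤ Ideal.span {u} := by
      intro t ht
      by_contra htu
      exact hcon t htu ht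
    obtain ⟨Q, hIQ, hQp, hQc⟩ := Ideal.exists_ideal_over_prime_of_isIntegral (Ideal.span {u}) I hle
    obtain ⟨a, b, -, hb, hab⟩ := local_bound δ hδP D s hs hD ω u hu Q hQc
    exact hb (hIQ ⟨a, hab⟩)
  obtain ⟨t, htu, c, hc⟩ := hex
  refine ⟨t, fun h => htu (Ideal.mem_span_singleton.mpr h), ?_⟩
  have hcQ : ∀ Q : Ideal A, Q.IsPrime → Q.comap (algebraMap P A) = Ideal.span {u} → c ∈ Q := by
    intro Q hQp hQc
    obtain ⟨a, b, ha, hb, hab⟩ := local_bound δ hδP D s hs hD ω u hu Q hQc
    have h1 : b * c = algebraMap P A t * a := by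
      apply hAKinj
      rw [map_mul, map_mul, ← hc, ← hab]
      ring
    have h2 : b * c ∈ Q := by
      rw [h1]
      exact Ideal.mul_mem_left _ _ ha
    exact (Ideal.IsPrime.mem_or_mem inferInstance h2).resolve_left hb
  have hnext := nextCoeff_mem_of_forall_prime (Ideal.span {u}) c hcQ
  obtain ⟨v, hv⟩ := Ideal.mem_span_singleton.mp hnext
  obtain ⟨N, -, hN⟩ := trace_algebraMap_eq (P := P) (F := F) (K := K) c
    (Algebra.IsIntegral.isIntegral c)
  refine ⟨(N : P) * (-v), ?_⟩
  have huF : algebraMap P F u ≠ 0 :=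
    (map_ne_zero_iff _ (IsFractionRing.injective P F)).mpr hu.ne_zero
  have h1 : algebraMap A K c = (algebraMap P F t * algebraMap P F u) • ξ := by
    rw [← hc, Algebra.smul_def, map_mul, ← IsScalarTower.algebraMap_apply P F K,
      ← IsScalarTower.algebraMap_apply P F K, ← IsScalarTower.algebraMap_apply P A K]
    ring
  rw [h1, map_smul, smul_eq_mul, hv] at hN
  apply mul_left_cancel₀ huF
  have h3 : algebraMap P F u * (algebraMap P F t * (Algebra.trace F K) ξ) =
      algebraMap P F t * algebraMap P F u * (Algebra.trace F K) ξ := by ring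
  rw [h3, hN]
  simp only [map_mul, map_neg, map_natCast]
  ring

end Trace

section Sep

/-- Separating a maximal ideal from the other primes over an ideal all of whose primes are
maximal. -/
theorem exists_separating {A : Type*} [CommRing A] [IsNoetherianRing A] (J m : Ideal A)
    [hm : m.IsMaximal] (hJ : ∀ Q : Ideal A, Q.IsPrime → J ≤ Q → Q.IsMaximal) :
    ∃ a, a ∉ m ∧ ∀ Q : Ideal A, Q.IsPrime → J ≤ Q → Q ≠ m → a ∈ Q := by
  classical
  have hfin : (J.minimalPrimes).Finite := Ideal.finite_minimalPrimes_of_isNoetherianRing A J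
  have hmin : ∀ Q : Ideal A, Q.IsPrime → J ≤ Q → Q ∈ J.minimalPrimes := by
    intro Q hQ hJQ
    refine ⟨⟨hQ, hJQ⟩, ?_⟩
    rintro Q' ⟨hQ', hJQ'⟩ hle
    have hmax := hJ Q' hQ' hJQ'
    exact (hmax.eq_of_le hQ.ne_top hle).ge
  have hsep : ∀ Q : Ideal A, Q ∈ J.minimalPrimes → ∃ a, a ∉ m ∧ (Q ≠ m → a ∈ Q) := by
    intro Q hQ
    by_cases hQm : Q = m
    · exact ⟨1, (Ideal.ne_top_iff_one m).mp hm.ne_top, fun h => absurd hQm h⟩
    · have hmaxQ : Q.IsMaximal := hJ Q hQ.1.1 hQ.1.2
      have hnle : ¬ Q ≤ m := fun hle => hQm (hmaxQ.eq_of_le hm.ne_top hle)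
      obtain ⟨a, haQ, ham⟩ := SetLike.not_le_iff_exists.mp hnle
      exact ⟨a, ham, fun _ => haQ⟩
  choose! f hfm hfQ using hsep
  refine ⟨∏ Q ∈ hfin.toFinset, f Q, ?_, ?_⟩
  · intro h
    have hmprime : m.IsPrime := hm.isPrime
    obtain ⟨Q, hQ, hQm⟩ := (hmprime.prod_mem_iff).mp h
    exact hfm Q (hfin.mem_toFinset.mp hQ) hQm
  · intro Q hQ hJQ hne
    have hQmin := hmin Q hQ hJQ
    have hQmem : Q ∈ hfin.toFinset := hfin.mem_toFinset.mpr hQmin
    have hdvd : f Q ∣ ∏ Q ∈ hfin.toFinset, f Q := Finset.dvd_prod_of_mem f hQmem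
    exact Ideal.mem_of_dvd _ hdvd (hfQ Q hQmin hne)

end Sep

end Vale.Agent.Lib.P266
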