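import Vale.Agent.Lib.P266.Reg

open DirectSum

namespace Vale.Agent.Lib.P266

section Euler

variable {A : Type*} [CommRing A] [Algebra ℂ A] (𝒜 : ℤ → Submodule ℂ A) [GradedAlgebra 𝒜]

/-- The Euler linear map of a `ℤ`-grading: multiplication by `n` in degree `n`. -/
noncomputable def eulerLin : A →ₗ[ℂ] A :=
  (DirectSum.toModule ℂ ℤ A (fun n => ((n : ℂ)) • (𝒜 n).subtype)) ∘ₗ
    (DirectSum.decomposeLinearEquiv 𝒜).toLinearMap

theorem eulerLin_of_mem {n : ℤ} {x : A} (hx : x ∈ 𝒜 n) : eulerLin 𝒜 x = (n : ℂ) • x := by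
  have h : DirectSum.decompose 𝒜 x = DirectSum.of (fun i => 𝒜 i) n ⟨x, hx⟩ :=
    DirectSum.decompose_of_mem 𝒜 hx
  simp only [eulerLin, LinearMap.comp_apply, LinearEquiv.coe_coe, DirectSum.decomposeLinearEquiv_apply]
  rw [h]
  have := DirectSum.toModule_lof (R := ℂ) (M := fun i => 𝒜 i) (N := A)
    (φ := fun n => ((n : ℂ)) • (𝒜 n).subtype) n ⟨x, hx⟩
  rw [DirectSum.lof_eq_of] at this
  rw [this]
  simp

/-- The Euler derivation of a `ℤ`-grading. -/
noncomputable def euler : Derivation ℂ A A :=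
  Derivation.mk' (eulerLin 𝒜) (by
    intro a b
    induction a using DirectSum.Decomposition.inductionOn 𝒜 with
    | zero => simp
    | add a a' ha ha' =>
      rw [add_mul, map_add, ha, ha', map_add]
      simp only [smul_eq_mul]
      ring
    | homogeneous a =>
      induction b using DirectSum.Decomposition.inductionOn 𝒜 with
      | zero => simp
      | add b b' hb hb' =>
        rw [mul_add, map_add, hb, hb', map_add]
        simp only [smul_eq_mul]
        ring
      | homogeneous b =>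
        rename_i i j
        rw [eulerLin_of_mem 𝒜 (SetLike.mul_mem_graded a.2 b.2), eulerLin_of_mem 𝒜 a.2,
          eulerLin_of_mem 𝒜 b.2]
        simp only [Int.cast_add, smul_eq_mul, Algebra.smul_def, map_add]
        ring)

theorem euler_of_mem {n : ℤ} {x : A} (hx : x ∈ 𝒜 n) : euler 𝒜 x = (n : ℂ) • x :=
  eulerLin_of_mem 𝒜 hx

theorem decompose_euler (z : A) (n : ℤ) :
    (DirectSum.decompose 𝒜 (euler 𝒜 z) n : A) = (n : ℂ) • (DirectSum.decompose 𝒜 z n : A) := by
  induction z using DirectSum.Decomposition.inductionOn 𝒜 with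
  | zero => simp
  | add a b ha hb =>
    rw [map_add, DirectSum.decompose_add, DirectSum.decompose_add, DirectSum.add_apply,
      DirectSum.add_apply, Submodule.coe_add, Submodule.coe_add, ha, hb, smul_add]
  | homogeneous a =>
    rename_i k
    rw [euler_of_mem 𝒜 a.2]
    by_cases h : k = n
    · subst h
      have h2 : (a : A) ∈ 𝒜 k := a.2
      have h3 : ((k : ℂ) • (a : A)) ∈ 𝒜 k := (𝒜 k).smul_mem _ a.2
      rw [DirectSum.decompose_of_mem_same 𝒜 h3, DirectSum.decompose_of_mem_same 𝒜 h2]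
    · have h2 : (a : A) ∈ 𝒜 k := a.2
      have h3 : ((k : ℂ) • (a : A)) ∈ 𝒜 k := (𝒜 k).smul_mem _ a.2
      rw [DirectSum.decompose_of_mem_ne 𝒜 h3 h, DirectSum.decompose_of_mem_ne 𝒜 h2 h, smul_zero]

variable {𝒜}

theorem isHomogeneous_of_forall_mem {m : Ideal A} (hm : ∀ n : ℤ, n ≠ 0 → ∀ x ∈ 𝒜 n, x ∈ m) :
    m.IsHomogeneous 𝒜 := by
  classical
  intro i r hr
  by_cases hi : i = 0
  · subst hi
    have hsum := DirectSum.sum_support_decompose 𝒜 r
    by_cases h0 : (0 : ℤ) ∈ (DirectSum.decompose 𝒜 r).support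
    · rw [← Finset.add_sum_erase _ _ h0] at hsum
      have hrest : ∑ j ∈ (DirectSum.decompose 𝒜 r).support.erase 0,
          (DirectSum.decompose 𝒜 r j : A) ∈ m := by
        refine m.sum_mem fun j hj => ?_
        exact hm j (Finset.ne_of_mem_erase hj) _ (SetLike.coe_mem _)
      have : (DirectSum.decompose 𝒜 r 0 : A) = r - ∑ j ∈ (DirectSum.decompose 𝒜 r).support.erase 0,
          (DirectSum.decompose 𝒜 r j : A) := by
        rw [eq_sub_iff_add_eq]
        exact hsum
      show (DirectSum.decompose 𝒜 r 0 : A) ∈ m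
      rw [this]
      exact m.sub_mem hr hrest
    · have h1 : DirectSum.decompose 𝒜 r 0 = 0 := by
        simpa using h0
      show (DirectSum.decompose 𝒜 r 0 : A) ∈ m
      rw [h1]
      exact m.zero_mem
  · exact hm i hi _ (SetLike.coe_mem _)

theorem decompose_zero_mem_sq {m : Ideal A} (hm : ∀ n : ℤ, n ≠ 0 → ∀ x ∈ 𝒜 n, x ∈ m) {z : A}
    (hz : z ∈ nonzeroDegreeIdeal 𝒜) : (DirectSum.decompose 𝒜 z 0 : A) ∈ m ^ 2 := by
  have key : ∀ a : A, (DirectSum.decompose 𝒜 (a * z) 0 : A) ∈ m ^ 2 := by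
    refine Submodule.span_induction (p := fun z _ => ∀ a : A,
      (DirectSum.decompose 𝒜 (a * z) 0 : A) ∈ m ^ 2) ?_ ?_ ?_ ?_ hz
    · rintro x ⟨n, hn, hx⟩ a
      have h0 : (0 : ℤ) = (-n) + n := by ring
      rw [h0, DirectSum.coe_decompose_mul_add_of_right_mem 𝒜 hx, pow_two]
      exact Ideal.mul_mem_mul (hm (-n) (by omega) _ (SetLike.coe_mem _)) (hm n hn x hx)
    · intro a
      simp
    · intro x y _ _ hx hy a
      rw [mul_add, DirectSum.decompose_add, DirectSum.add_apply, Submodule.coe_add]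
      exact Ideal.add_mem _ (hx a) (hy a)
    · intro b x _ hx a
      have : a * b • x = (a * b) * x := by
        rw [smul_eq_mul]; ring
      rw [this]
      exact hx _
  simpa using key 1

theorem mem_sq_of_euler_mem {m : Ideal A} (hm : ∀ n : ℤ, n ≠ 0 → ∀ x ∈ 𝒜 n, x ∈ m) {z : A}
    (hz : z ∈ nonzeroDegreeIdeal 𝒜) (hE : euler 𝒜 z ∈ m ^ 2) : z ∈ m ^ 2 := by
  have hh : (m ^ 2).IsHomogeneous 𝒜 := by
    rw [pow_two]
    exact (isHomogeneous_of_forall_mem hm).mul (isHomogeneous_of_forall_mem hm)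
  rw [Ideal.IsHomogeneous.mem_iff 𝒜 hh]
  intro n
  by_cases hn : n = 0
  · subst hn
    exact decompose_zero_mem_sq hm hz
  · have h1 := (Ideal.IsHomogeneous.mem_iff 𝒜 hh).1 hE n
    rw [decompose_euler] at h1
    have hn' : (n : ℂ) ≠ 0 := by exact_mod_cast hn
    have h2 := (m ^ 2).mul_mem_left (algebraMap ℂ A ((n : ℂ)⁻¹)) (by
      rw [Algebra.smul_def] at h1; exact h1)
    rw [← mul_assoc, ← map_mul, inv_mul_cancel₀ hn', map_one, one_mul] at h2
    exact h2

theorem isProjectableAt_euler {d : ℕ} (y : Fin d → A) (hy : AlgebraicIndependent ℂ y)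
    (hint : (MvPolynomial.aeval y : MvPolynomial (Fin d) ℂ →ₐ[ℂ] A).toRingHom.IsIntegral)
    (deg : Fin d → ℤ) (hdeg : ∀ i, y i ∈ 𝒜 (deg i)) (m : Ideal A) (hym : ∀ i, y i ∈ m) :
    IsProjectableAt m (euler 𝒜) := by
  refine ⟨d, y, hy, hint, hym, fun i => ?_⟩
  refine ⟨MvPolynomial.C ((deg i : ℤ) : ℂ) * MvPolynomial.X i, by simp, ?_⟩
  rw [euler_of_mem 𝒜 (hdeg i)]
  simp [Algebra.smul_def]

end Euler

section Final

variable {A : Type*} [CommRing A] [IsDomain A] [IsIntegrallyClosed A] [Algebra ℂ A]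
  [Algebra.FiniteType ℂ A]

/-- Regularity for `ℤ`-graded rings with a homogeneous system of parameters at the point `m`
fixed by the grading, reduced to the fixed scheme `A / (homogeneous elements of nonzero degree)`. -/
theorem isRegularLocalRing_of_graded (𝒜 : ℤ → Submodule ℂ A) [GradedAlgebra 𝒜]
    {d : ℕ} (y : Fin d → A) (hy : AlgebraicIndependent ℂ y)
    (hint : (MvPolynomial.aeval y : MvPolynomial (Fin d) ℂ →ₐ[ℂ] A).toRingHom.IsIntegral)
    (deg : Fin d → ℤ) (hdeg : ∀ i, y i ∈ 𝒜 (deg i))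
    (m : Ideal A) [hm' : m.IsMaximal] (hym : ∀ i, y i ∈ m)
    (hm : ∀ n : ℤ, n ≠ 0 → ∀ x ∈ 𝒜 n, x ∈ m)
    (hreg : IsRegularLocalRing (Localization.AtPrime m ⧸
      (nonzeroDegreeIdeal 𝒜).map (algebraMap A (Localization.AtPrime m))))
    (hfree : Module.Free (Localization.AtPrime m)
      (LocalizedModule m.primeCompl (Derivation ℂ A A))) :
    IsRegularLocalRing (Localization.AtPrime m) := by
  refine isRegularLocalRing_of_projectable m (nonzeroDegreeIdeal 𝒜) ?_ hreg hfree ?_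
  · refine Ideal.span_le.2 ?_
    rintro x ⟨n, hn, hx⟩
    exact hm n hn x hx
  · intro z hz h
    exact mem_sq_of_euler_mem hm hz
      (h _ (isProjectableAt_euler y hy hint deg hdeg m hym))

end Final

end Vale.Agent.Lib.P266
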