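import Mathlib

open Polynomial IntermediateField Algebra

namespace Vale.Agent.Lib.P266

section Roots

variable {P A : Type*} [CommRing P] [IsDomain P] [IsIntegrallyClosed P] [CommRing A] [IsDomain A]
  [Algebra P A] [FaithfulSMul P A] [Algebra.IsIntegral P A]

/-- Every root of the reduction of the minimal polynomial of `c` comes from a prime of `A`. -/
theorem exists_prime_of_root {Ω : Type*} [CommRing Ω] [IsDomain Ω] (φ : P →+* Ω) (c : A) (l : Ω)
    (hroot : (minpoly P c).eval₂ φ l = 0) :
    ∃ Q : Ideal A, Q.IsPrime ∧ ∀ f : P[X], aeval c f ∈ Q ↔ f.eval₂ φ l = 0 := by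
  let g : P[X] →+* A := (aeval c : P[X] →ₐ[P] A).toRingHom
  let Ψ : P[X] →+* Ω := eval₂RingHom φ l
  have : (RingHom.ker Ψ).IsPrime := RingHom.ker_isPrime Ψ
  let : Algebra P[X] A := g.toAlgebra
  have : IsScalarTower P P[X] A := IsScalarTower.of_algebraMap_eq (fun p => by
    change algebraMap P A p = aeval c (algebraMap P P[X] p)
    simp)
  have : Algebra.IsIntegral P[X] A :=
    ⟨fun a => (Algebra.IsIntegral.isIntegral (R := P) a).tower_top⟩
  have hc : IsIntegral P c := Algebra.IsIntegral.isIntegral c
  obtain ⟨Q, -, hQ, hQc⟩ := Ideal.exists_ideal_over_prime_of_isIntegral (RingHom.ker Ψ)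
    (⊥ : Ideal A) (by
      intro f hf
      have hf0 : aeval c f = 0 := by
        have : algebraMap P[X] A f = 0 := by simpa using hf
        exact this
      have hdvd : minpoly P c ∣ f := minpoly.isIntegrallyClosed_dvd hc hf0
      obtain ⟨h, rfl⟩ := hdvd
      rw [RingHom.mem_ker]
      change eval₂ φ l (minpoly P c * h) = 0
      rw [eval₂_mul, hroot, zero_mul])
  refine ⟨Q, hQ, fun f => ?_⟩
  have h1 : aeval c f ∈ Q ↔ f ∈ Q.comap (algebraMap P[X] A) := Iff.rfl
  rw [h1, hQc]
  exact RingHom.mem_ker

omit [IsDomain P] [IsIntegrallyClosed P] [IsDomain A] [FaithfulSMul P A] [Algebra.IsIntegral P A] in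
theorem comap_eq_ker_of_forall {Ω : Type*} [CommRing Ω] (φ : P →+* Ω) (c : A) (l : Ω)
    (Q : Ideal A) (h : ∀ f : P[X], aeval c f ∈ Q ↔ f.eval₂ φ l = 0) :
    Q.comap (algebraMap P A) = RingHom.ker φ := by
  ext p
  rw [Ideal.mem_comap, RingHom.mem_ker]
  have := h (C p)
  simpa using this

/-- If `c` lies in every prime over `𝔮` then the next coefficient of its minimal polynomial lies
in `𝔮`. -/
theorem nextCoeff_mem_of_forall_prime (𝔮 : Ideal P) [𝔮.IsPrime] (c : A)
    (h : ∀ Q : Ideal A, Q.IsPrime → Q.comap (algebraMap P A) = 𝔮 → c ∈ Q) :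
    (minpoly P c).nextCoeff ∈ 𝔮 := by
  let Ω := AlgebraicClosure (FractionRing (P ⧸ 𝔮))
  let φ : P →+* Ω := (algebraMap (FractionRing (P ⧸ 𝔮)) Ω).comp
    ((algebraMap (P ⧸ 𝔮) (FractionRing (P ⧸ 𝔮))).comp (Ideal.Quotient.mk 𝔮))
  have hker : RingHom.ker φ = 𝔮 := by
    ext p
    rw [RingHom.mem_ker]
    simp only [φ, RingHom.comp_apply]
    rw [map_eq_zero, IsFractionRing.to_map_eq_zero_iff, Ideal.Quotient.eq_zero_iff_mem]
  have hmonic : (minpoly P c).Monic := minpoly.monic (Algebra.IsIntegral.isIntegral c)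
  have hroots : ∀ l ∈ ((minpoly P c).map φ).roots, l = 0 := by
    intro l hl
    have hroot : (minpoly P c).eval₂ φ l = 0 := by
      have := (Polynomial.mem_roots'.mp hl).2
      rwa [IsRoot.def, eval_map] at this
    obtain ⟨Q, hQ, hQf⟩ := exists_prime_of_root φ c l hroot
    have hcomap := comap_eq_ker_of_forall φ c l Q hQf
    rw [hker] at hcomap
    have hcQ := h Q hQ hcomap
    have := (hQf X).mp (by simpa using hcQ)
    simpa using this
  have hsplits : ((minpoly P c).map φ).Splits := IsAlgClosed.splits _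
  have hnext := hsplits.nextCoeff_eq_neg_sum_roots_of_monic (hmonic.map φ)
  have hsum : ((minpoly P c).map φ).roots.sum = 0 := by
    apply Multiset.sum_eq_zero
    exact hroots
  rw [hsum, neg_zero, nextCoeff_map_eq_of_isUnit_leadingCoeff φ
    (by rw [hmonic.leadingCoeff]; exact isUnit_one)] at hnext
  rw [← hker, RingHom.mem_ker]
  exact hnext

omit [IsDomain P] [IsIntegrallyClosed P] [CommRing A] [IsDomain A] [Algebra P A] [FaithfulSMul P A]
  [Algebra.IsIntegral P A] in
/-- The sum of a multiset with all elements `0` or `c`. -/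
theorem sum_eq_count_mul {Ω : Type*} [Field Ω] [DecidableEq Ω] (c : Ω) (hc : c ≠ 0) (s : Multiset Ω)
    (h : ∀ x ∈ s, x = 0 ∨ x = c) : s.sum = (s.count c : Ω) * c := by
  induction s using Multiset.induction_on with
  | empty => simp
  | cons a s ih =>
    have h1 := h a (Multiset.mem_cons_self a s)
    have h2 := ih (fun x hx => h x (Multiset.mem_cons_of_mem hx))
    rw [Multiset.sum_cons, h2]
    rcases h1 with rfl | rfl
    · rw [Multiset.count_cons_of_ne hc]
      simp
    · rw [Multiset.count_cons_self]
      push_cast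
      ring

/-- If `c` is nonzero at the point `ev` and vanishes at all other points of the fibre through
`ev`, then the next coefficient of the minimal polynomial does not vanish at the image point. -/
theorem nextCoeff_ne_zero_of_separation {Ω : Type*} [Field Ω] [IsAlgClosed Ω] [CharZero Ω]
    (ε : P →+* Ω) (ev : A →+* Ω) (hev : ∀ p, ev (algebraMap P A p) = ε p)
    (hε : ∀ z : Ω, ∃ p, ε p = z) (c : A) (hc : ev c ≠ 0)
    (h : ∀ Q : Ideal A, Q.IsPrime → Q.comap (algebraMap P A) = RingHom.ker ε →
      Q ≠ RingHom.ker ev → c ∈ Q) :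
    ε (minpoly P c).nextCoeff ≠ 0 := by
  classical
  have hmonic : (minpoly P c).Monic := minpoly.monic (Algebra.IsIntegral.isIntegral c)
  have hroots : ∀ l ∈ ((minpoly P c).map ε).roots, l = 0 ∨ l = ev c := by
    intro l hl
    have hroot : (minpoly P c).eval₂ ε l = 0 := by
      have := (Polynomial.mem_roots'.mp hl).2
      rwa [IsRoot.def, eval_map] at this
    obtain ⟨Q, hQ, hQf⟩ := exists_prime_of_root ε c l hroot
    have hcomap := comap_eq_ker_of_forall ε c l Q hQf
    by_cases hQe : Q = RingHom.ker ev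
    · right
      obtain ⟨p, hp⟩ := hε l
      have h1 := (hQf (X - C p)).mpr (by simp [eval₂_sub, hp])
      rw [hQe, RingHom.mem_ker] at h1
      simp only [map_sub, aeval_X, aeval_C, hev, hp] at h1
      exact (sub_eq_zero.mp h1).symm
    · left
      have hcQ := h Q hQ hcomap hQe
      have := (hQf X).mp (by simpa using hcQ)
      simpa using this
  have hrootc : ev c ∈ ((minpoly P c).map ε).roots := by
    rw [Polynomial.mem_roots (hmonic.map ε).ne_zero, IsRoot.def, eval_map]
    have h1 : ev ((minpoly P c).eval₂ (algebraMap P A) c) =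
        (minpoly P c).eval₂ (ev.comp (algebraMap P A)) (ev c) := hom_eval₂ _ _ _ _
    have h2 : (ev.comp (algebraMap P A)) = ε := RingHom.ext hev
    rw [h2] at h1
    rw [← h1]
    have h3 : (minpoly P c).eval₂ (algebraMap P A) c = 0 := minpoly.aeval P c
    rw [h3, map_zero]
  have hsplits : ((minpoly P c).map ε).Splits := IsAlgClosed.splits _
  have hnext := hsplits.nextCoeff_eq_neg_sum_roots_of_monic (hmonic.map ε)
  rw [nextCoeff_map_eq_of_isUnit_leadingCoeff ε
    (by rw [hmonic.leadingCoeff]; exact isUnit_one), sum_eq_count_mul (ev c) hc _ hroots] at hnext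
  rw [hnext]
  have hcount : 0 < ((minpoly P c).map ε).roots.count (ev c) := Multiset.count_pos.mpr hrootc
  have : (((minpoly P c).map ε).roots.count (ev c) : Ω) ≠ 0 := by
    exact_mod_cast hcount.ne'
  exact neg_ne_zero.mpr (mul_ne_zero this hc)

end Roots

section TraceFormula

variable {P A F K : Type*} [CommRing P] [IsDomain P] [IsIntegrallyClosed P] [CommRing A]
  [IsDomain A] [Algebra P A] [Field F] [Field K] [Algebra P F] [IsFractionRing P F]
  [Algebra A K] [IsFractionRing A K] [Algebra F K] [Algebra P K] [IsScalarTower P F K]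
  [IsScalarTower P A K] [FiniteDimensional F K]

omit [IsDomain A] in
/-- The trace of an element integral over the integrally closed domain `P` is a positive multiple
of minus the next coefficient of its minimal polynomial. -/
theorem trace_algebraMap_eq (c : A) (hc : IsIntegral P c) :
    ∃ N : ℕ, N ≠ 0 ∧ Algebra.trace F K (algebraMap A K c) =
      algebraMap P F ((N : P) * (-(minpoly P c).nextCoeff)) := by
  have hinj : Function.Injective (algebraMap A K) := IsFractionRing.injective A K
  have hx : IsIntegral P (algebraMap A K c) := by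
    exact hc.algebraMap
  refine ⟨Module.finrank F⟮algebraMap A K c⟯ K, Module.finrank_pos.ne', ?_⟩
  rw [trace_eq_finrank_mul_minpoly_nextCoeff, minpoly.isIntegrallyClosed_eq_field_fractions' F hx,
    minpoly.algebraMap_eq hinj, nextCoeff_map (IsFractionRing.injective P F)]
  simp

end TraceFormula

end Vale.Agent.Lib.P266
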