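import Vale.Agent.Lib.P266.Basic
import Vale.Agent.Lib.P266.Deriv
import Vale.Agent.Lib.P266.Trace

open Polynomial

namespace Vale.Agent.Lib.P266

section Primes

variable {P A : Type*} [CommRing P] [IsDomain P] [UniqueFactorizationMonoid P] [CommRing A]
  [IsDomain A] [Algebra P A] [Algebra.IsIntegral P A]

/-- A prime over a prime element has no nonzero prime below it. -/
theorem eq_of_le_of_comap_span {u : P} (hu : Prime u) {Q Q' : Ideal A} [Q.IsPrime] [Q'.IsPrime]
    (hQ : Q.comap (algebraMap P A) = Ideal.span {u}) (hle : Q' ≤ Q) (hne : Q' ≠ ⊥) : Q' = Q := by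
  by_contra hcon
  have hlt : Q' < Q := lt_of_le_of_ne hle hcon
  have h1 := Ideal.IsIntegral.comap_lt_comap (R := P) hlt
  have h2 : Q'.comap (algebraMap P A) ≠ ⊥ := Ideal.IsIntegral.comap_ne_bot P hne
  obtain ⟨v, hv, hvp⟩ := Ideal.IsPrime.exists_mem_prime_of_ne_bot inferInstance h2
  have hvu : v ∈ Ideal.span {u} := by rw [← hQ]; exact h1.le hv
  have hdvd : u ∣ v := Ideal.mem_span_singleton.mp hvu
  have hass : Associated u v :=
    hu.irreducible.associated_of_dvd hvp.irreducible hdvd
  have huQ' : u ∈ Q'.comap (algebraMap P A) := by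
    obtain ⟨w, hw⟩ := hass.symm
    rw [← hw]
    exact Ideal.mul_mem_right _ _ hv
  apply (not_le_of_gt h1)
  rw [hQ, Ideal.span_singleton_le_iff_mem]
  exact huQ'

end Primes

section Local

variable {k P A K : Type*} [Field k] [CharZero k] [CommRing P] [IsDomain P]
  [UniqueFactorizationMonoid P] [CommRing A] [IsDomain A] [IsIntegrallyClosed A]
  [IsNoetherianRing A] [Algebra k A] [Algebra.FiniteType k A] [Algebra P A]
  [FaithfulSMul P A] [Algebra.IsIntegral P A] [Field K] [Algebra A K] [IsFractionRing A K]
  [Algebra k K] [IsScalarTower k A K] [Algebra P K] [IsScalarTower P A K]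

/-- The local bound at a prime of `A` lying over a prime element `u` of `P`: writing
`ξ = ω D / s`, the element `u ξ` lies in the maximal ideal of the local ring `A_Q`. -/
theorem local_bound (δ : Derivation k K K)
    (hδP : ∀ p : P, δ (algebraMap P K p) ∈ (algebraMap P K).range)
    (D : Derivation k A A) (s : A) (hs : s ≠ 0)
    (hD : ∀ a, algebraMap A K (D a) = algebraMap A K s * δ (algebraMap A K a))
    (ω : Derivation k A A →ₗ[A] A) (u : P) (hu : Prime u) (Q : Ideal A) [Q.IsPrime]
    (hQ : Q.comap (algebraMap P A) = Ideal.span {u}) :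
    ∃ a b : A, a ∈ Q ∧ b ∉ Q ∧
      algebraMap A K b * (algebraMap P K u * (algebraMap A K (ω D) / algebraMap A K s)) =
        algebraMap A K a := by
  classical
  have hPAinj : Function.Injective (algebraMap P A) := FaithfulSMul.algebraMap_injective P A
  have hAKinj : Function.Injective (algebraMap A K) := IsFractionRing.injective A K
  let R := Localization.AtPrime Q
  have hARinj : Function.Injective (algebraMap A R) :=
    IsLocalization.injective R Q.primeCompl_le_nonZeroDivisors
  have hRdom : IsDomain R := IsLocalization.isDomain_localization Q.primeCompl_le_nonZeroDivisors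
  have hRnoeth : IsNoetherianRing R := IsLocalization.isNoetherianRing Q.primeCompl R inferInstance
  have hRic : IsIntegrallyClosed R :=
    isIntegrallyClosed_of_isLocalization R Q.primeCompl Q.primeCompl_le_nonZeroDivisors
  let ιR : R →+* K := IsLocalization.lift (M := Q.primeCompl) (g := algebraMap A K) (fun y => by
    have hy : (y : A) ≠ 0 := fun h => y.2 (by rw [h]; exact Q.zero_mem)
    exact (map_ne_zero_iff _ hAKinj |>.mpr hy).isUnit)
  let _ : Algebra R K := ιR.toAlgebra
  have hAR : ∀ a : A, algebraMap R K (algebraMap A R a) = algebraMap A K a := fun a =>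
    IsLocalization.lift_eq _ a
  have _ : IsScalarTower A R K := IsScalarTower.of_algebraMap_eq (fun a => (hAR a).symm)
  have _ : IsScalarTower k R K := IsScalarTower.of_algebraMap_eq (fun c => by
    rw [IsScalarTower.algebraMap_apply k A K, IsScalarTower.algebraMap_apply k A R, hAR])
  have hRfrac : IsFractionRing R K :=
    IsFractionRing.isFractionRing_of_isDomain_of_isLocalization Q.primeCompl R K
  have hRKinj : Function.Injective (algebraMap R K) := IsFractionRing.injective R K
  have huA : algebraMap P A u ≠ 0 := by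
    intro h
    exact hu.ne_zero (hPAinj (by simpa using h))
  have huQ : algebraMap P A u ∈ Q := by
    have : u ∈ Q.comap (algebraMap P A) := by
      rw [hQ]; exact Ideal.mem_span_singleton_self u
    exact this
  have hQne : Q ≠ ⊥ := by
    intro h
    rw [h] at huQ
    exact huA (by simpa using huQ)
  -- `R` is a discrete valuation ring.
  have hnotfield : ¬ IsField R := by
    intro hf
    have hmax : IsLocalRing.maximalIdeal R = ⊥ := IsLocalRing.isField_iff_maximalIdeal_eq.mp hf
    have : algebraMap A R (algebraMap P A u) ∈ IsLocalRing.maximalIdeal R :=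
      (IsLocalization.AtPrime.to_map_mem_maximal_iff R Q _).mpr huQ
    rw [hmax, Ideal.mem_bot] at this
    exact huA (hARinj (by simpa using this))
  have hDVR : IsDiscreteValuationRing R := by
    have htfae := (IsDiscreteValuationRing.TFAE R hnotfield).out 3 0
    refine htfae.mp ⟨hRic, ?_⟩
    refine ⟨IsLocalRing.maximalIdeal R, ⟨?_, inferInstance⟩, ?_⟩
    · intro h
      exact hnotfield (IsLocalRing.isField_iff_maximalIdeal_eq.mpr h)
    · rintro P' ⟨hP'ne, hP'prime⟩
      have hcomap : (P'.comap (algebraMap A R)).IsPrime := Ideal.comap_isPrime _ _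
      have hle : P'.comap (algebraMap A R) ≤ Q := by
        intro a ha
        by_contra hna
        have hunit : IsUnit (algebraMap A R a) :=
          IsLocalization.map_units R (⟨a, hna⟩ : Q.primeCompl)
        exact hP'prime.ne_top (Ideal.eq_top_of_isUnit_mem _ ha hunit)
      have hmap : Ideal.map (algebraMap A R) (P'.comap (algebraMap A R)) = P' :=
        IsLocalization.map_under Q.primeCompl R P'
      have hne : P'.comap (algebraMap A R) ≠ ⊥ := by
        intro hbot
        apply hP'ne
        rw [← hmap, hbot, Ideal.map_bot]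
      have heq := eq_of_le_of_comap_span (Q := Q) hu hQ hle hne
      rw [← hmap, heq]
      exact Localization.AtPrime.map_eq_maximalIdeal
  -- a uniformizer coming from `A`.
  obtain ⟨ϖ, hϖ⟩ := IsDiscreteValuationRing.exists_irreducible R
  obtain ⟨πA, t0, ht0⟩ := IsLocalization.exists_mk'_eq Q.primeCompl ϖ
  have ht0unit : IsUnit (algebraMap A R (t0 : A)) := IsLocalization.map_units R t0
  have hπR : Irreducible (algebraMap A R πA) := by
    have h1 : algebraMap A R πA = ϖ * algebraMap A R (t0 : A) := by
      rw [← ht0, IsLocalization.mk'_spec]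
    rw [h1]
    exact (irreducible_mul_isUnit ht0unit).mpr hϖ
  set π := algebraMap A R πA with hπdef
  have hπQ : πA ∈ Q := by
    by_contra h
    exact hπR.not_isUnit (IsLocalization.map_units R (⟨πA, h⟩ : Q.primeCompl))
  -- `u = π ^ e` up to a unit.
  set uR := algebraMap A R (algebraMap P A u) with huR
  have huRne : uR ≠ 0 := by
    intro h
    exact huA (hARinj (by simpa [huR] using h))
  obtain ⟨e, he⟩ := IsDiscreteValuationRing.associated_pow_irreducible huRne hπR
  have huRnonunit : ¬ IsUnit uR := by
    intro h
    have : uR ∈ IsLocalRing.maximalIdeal R :=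
      (IsLocalization.AtPrime.to_map_mem_maximal_iff R Q _).mpr huQ
    exact (IsLocalRing.mem_maximalIdeal _).mp this h
  have he1 : 1 ≤ e := by
    by_contra h
    have h0 : e = 0 := by omega
    rw [h0, pow_zero] at he
    exact huRnonunit (he.symm.isUnit isUnit_one)
  -- the set `T`
  let T : Set R := Set.range fun p : P => algebraMap A R (algebraMap P A p)
  have hPR : ∀ p : P, algebraMap R K (algebraMap A R (algebraMap P A p)) = algebraMap P K p := by
    intro p
    rw [hAR, ← IsScalarTower.algebraMap_apply]
  have hδT : ∀ t ∈ T, δ (algebraMap R K t) ∈ (algebraMap R K).range := by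
    rintro t ⟨p, rfl⟩
    obtain ⟨p', hp'⟩ := hδP p
    refine ⟨algebraMap A R (algebraMap P A p'), ?_⟩
    simp only []
    rw [hPR, hPR, ← hp']
  have hcharR : ∀ n : ℕ, n ≠ 0 → IsUnit (n : R) := by
    intro n hn
    have : (n : R) = algebraMap k R (n : k) := by simp
    rw [this]
    exact (isUnit_iff_ne_zero.mpr (by exact_mod_cast hn)).map _
  -- the residue field argument
  have hres : ∀ D' : Derivation k R R, (∀ x, π ∣ x → π ∣ D' x) → (∀ t ∈ T, π ∣ D' t) →
      ∀ r, π ∣ D' r := by
    intro D' h1 h2 r
    have hIprime : (Ideal.span {π}).IsPrime :=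
      (Ideal.span_singleton_prime hπR.ne_zero).mpr hπR.prime
    have hmem : ∀ a : A, D' (algebraMap A R a) ∈ Ideal.span {π} := by
      intro a
      let TT : P →+* R := (algebraMap A R).comp (algebraMap P A)
      apply deriv_mem_of_isIntegralElem D' (Ideal.span {π}) TT
      · intro n hn hnmem
        exact hIprime.ne_top (Ideal.eq_top_of_isUnit_mem _ hnmem (hcharR n hn))
      · intro x hx
        exact Ideal.mem_span_singleton.mpr (h1 x (Ideal.mem_span_singleton.mp hx))
      · intro p
        exact Ideal.mem_span_singleton.mpr (h2 _ ⟨p, rfl⟩)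
      · obtain ⟨G, hG, hGe⟩ := Algebra.IsIntegral.isIntegral (R := P) a
        refine ⟨G, hG, ?_⟩
        have := hom_eval₂ G (algebraMap P A) (algebraMap A R) a
        rw [hGe, map_zero] at this
        exact this.symm
    obtain ⟨⟨a, t⟩, hrt⟩ := IsLocalization.surj Q.primeCompl r
    have ht : IsUnit (algebraMap A R (t : A)) := IsLocalization.map_units R t
    have h3 : D' (r * algebraMap A R (t : A)) = D' (algebraMap A R a) := by
      rw [hrt]
    rw [Derivation.leibniz] at h3
    simp only [smul_eq_mul] at h3
    have h4 : algebraMap A R (t : A) * D' r = D' (algebraMap A R a) -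
        r * D' (algebraMap A R (t : A)) := by
      rw [← h3]; ring
    have h5 : algebraMap A R (t : A) * D' r ∈ Ideal.span {π} := by
      rw [h4]
      exact Ideal.sub_mem _ (hmem a) (Ideal.mul_mem_left _ _ (hmem _))
    rw [Ideal.mem_span_singleton] at h5
    exact (ht.dvd_mul_left).mp h5
  -- clearing the poles of `δ` along `π`
  have hsR : algebraMap A R s ≠ 0 := by
    intro h
    exact hs (hARinj (by simpa using h))
  obtain ⟨n, hn⟩ := IsDiscreteValuationRing.associated_pow_irreducible hsR hπR
  obtain ⟨w, hw⟩ := hn.symm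
  have hk : ∃ n : ℕ, ∀ r : R, algebraMap R K π ^ n * δ (algebraMap R K r) ∈
      (algebraMap R K).range := by
    refine ⟨n, fun r => ?_⟩
    obtain ⟨⟨a, t⟩, hrt⟩ := IsLocalization.surj Q.primeCompl r
    have ht : IsUnit (algebraMap A R (t : A)) := IsLocalization.map_units R t
    obtain ⟨tu, htu⟩ := ht
    have htK : algebraMap R K (tu : R) ≠ 0 := by
      intro h
      exact tu.ne_zero (hRKinj (by simpa using h))
    have h1 : algebraMap R K r * algebraMap A K t = algebraMap A K a := by
      rw [← hAR a, ← hrt, map_mul, hAR]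
    have h2 := congrArg δ h1
    rw [Derivation.leibniz] at h2
    simp only [smul_eq_mul] at h2
    refine ⟨((w⁻¹ : Rˣ) : R) * ((algebraMap A R (D a) - r * algebraMap A R (D t)) * ((tu⁻¹ : Rˣ) : R)), ?_⟩
    have h3 : algebraMap A K s = algebraMap R K π ^ n * algebraMap R K (w : R) := by
      rw [← hAR s, ← hw, map_mul, map_pow]
    have h4 : algebraMap A K (t : A) = algebraMap R K (tu : R) := by
      rw [← hAR, htu]
    have h5 : algebraMap R K (w : R) * algebraMap R K ((w⁻¹ : Rˣ) : R) = 1 := by
      rw [← map_mul, Units.mul_inv, map_one]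
    have h6 : algebraMap R K (tu : R) * algebraMap R K ((tu⁻¹ : Rˣ) : R) = 1 := by
      rw [← map_mul, Units.mul_inv, map_one]
    rw [map_mul, map_mul, map_sub, map_mul, hAR, hAR, hD, hD, ← h2, h3, h4]
    linear_combination (algebraMap R K π ^ n * δ (algebraMap R K r) * algebraMap R K (tu : R) *
      algebraMap R K ((tu⁻¹ : Rˣ) : R)) * h5 + (algebraMap R K π ^ n * δ (algebraMap R K r)) * h6
  -- the bound on the pole order
  have hbound := pole_bound δ π hπR hcharR T hδT hres uR ⟨u, rfl⟩ e he1 he.symm hk
  -- common denominator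
  have hπK : algebraMap R K π = algebraMap A K πA := hAR πA
  rw [hπK] at hbound
  obtain ⟨t, ht, ht'⟩ := exists_common_denominator
    ((algebraMap A K πA ^ (e - 1)) • δ) Q.primeCompl (fun a => by
      obtain ⟨r, hr⟩ := hbound (algebraMap A R a)
      obtain ⟨b, t, hbt⟩ := IsLocalization.exists_mk'_eq Q.primeCompl r
      refine ⟨t, t.2, b, ?_⟩
      rw [Derivation.smul_apply, smul_eq_mul, ← hAR a, ← hr, ← hAR t, ← map_mul, ← hAR b]
      congr 1
      rw [← hbt, mul_comm, IsLocalization.mk'_spec])
  obtain ⟨D2, hD2⟩ := exists_derivation_restrict hAKinj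
    ((algebraMap A K t) • (algebraMap A K πA ^ (e - 1)) • δ) (fun a => by
      obtain ⟨b, hb⟩ := ht' a
      exact ⟨b, by rw [Derivation.smul_apply, smul_eq_mul, ← hb]⟩)
  have hsK : algebraMap A K s ≠ 0 := (map_ne_zero_iff _ hAKinj).mpr hs
  have hrel : s • D2 = (t * πA ^ (e - 1)) • D := by
    ext a
    apply hAKinj
    simp only [Derivation.smul_apply, smul_eq_mul, map_mul, hD2, hD, map_pow]
    ring
  have hrel2 : s * ω D2 = (t * πA ^ (e - 1)) * ω D := by
    have := congrArg ω hrel
    simpa [map_smul, smul_eq_mul] using this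
  -- relation between `u` and `π`
  obtain ⟨w0, hw0⟩ := he.symm
  obtain ⟨w1, w2, hw12⟩ := IsLocalization.exists_mk'_eq Q.primeCompl (w0 : R)
  have hw2 : algebraMap A R (w2 : A) * (w0 : R) = algebraMap A R w1 := by
    rw [← hw12, mul_comm, IsLocalization.mk'_spec]
  have hw1Q : w1 ∉ Q := by
    intro h
    have h1 : algebraMap A R w1 ∈ IsLocalRing.maximalIdeal R :=
      (IsLocalization.AtPrime.to_map_mem_maximal_iff R Q _).mpr h
    rw [← hw2] at h1
    have h2 : IsUnit (algebraMap A R (w2 : A) * (w0 : R)) :=
      (IsLocalization.map_units R w2).mul w0.isUnit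
    exact (IsLocalRing.mem_maximalIdeal _).mp h1 h2
  have hrelA : πA ^ e * w1 = algebraMap P A u * (w2 : A) := by
    apply hARinj
    rw [map_mul, map_mul, map_pow, ← hπdef, ← hw2, ← huR, ← hw0]
    ring
  refine ⟨πA * w1 * ω D2, (t : A) * (w2 : A), ?_, ?_, ?_⟩
  · exact Ideal.mul_mem_right _ _ (Ideal.mul_mem_right _ _ hπQ)
  · intro h
    rcases Ideal.IsPrime.mem_or_mem inferInstance h with h' | h'
    · exact ht h'
    · exact w2.2 h'
  · have hu' : algebraMap P K u = algebraMap A K (algebraMap P A u) :=
      IsScalarTower.algebraMap_apply P A K u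
    have hrelK : algebraMap A K πA ^ e * algebraMap A K w1 =
        algebraMap A K (algebraMap P A u) * algebraMap A K (w2 : A) := by
      rw [← map_pow, ← map_mul, hrelA, map_mul]
    have hrel2K : algebraMap A K s * algebraMap A K (ω D2) =
        algebraMap A K t * algebraMap A K πA ^ (e - 1) * algebraMap A K (ω D) := by
      rw [← map_pow, ← map_mul, ← map_mul, hrel2, map_mul]
    rw [hu']
    have hpow : algebraMap A K πA ^ e = algebraMap A K πA * algebraMap A K πA ^ (e - 1) := by
      rw [← pow_succ']
      congr 1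
      omega
    field_simp
    rw [map_mul, map_mul, map_mul]
    calc algebraMap A K (t : A) * algebraMap A K (w2 : A) * (algebraMap A K (algebraMap P A u)) * algebraMap A K (ω D)
        = algebraMap A K (t : A) * (algebraMap A K (algebraMap P A u) * algebraMap A K (w2 : A)) * algebraMap A K (ω D) := by ring
      _ = algebraMap A K (t : A) * (algebraMap A K πA ^ e * algebraMap A K w1) * algebraMap A K (ω D) := by rw [hrelK]
      _ = algebraMap A K πA * algebraMap A K w1 * (algebraMap A K t * algebraMap A K πA ^ (e - 1) * algebraMap A K (ω D)) := by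
          rw [hpow]; ring
      _ = algebraMap A K πA * algebraMap A K w1 * (algebraMap A K s * algebraMap A K (ω D2)) := by rw [hrel2K]
      _ = _ := by ring

end Local

end Vale.Agent.Lib.P266
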