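import Vale.Agent.Lib.P266.Defs
import Vale.Agent.Lib.P266.Eval
import Vale.Agent.Lib.P266.Dim

open IsLocalRing

namespace Vale.Agent.Lib.P266

section Null

/-- The Nullstellensatz in the form we need. -/
theorem exists_eval {k A : Type*} [Field k] [IsAlgClosed k] [CommRing A] [Algebra k A]
    [Algebra.FiniteType k A] (m : Ideal A) [hm : m.IsMaximal] :
    ∃ ev : A →ₐ[k] k, ∀ a, ev a = 0 ↔ a ∈ m := by
  let _ : Field (A ⧸ m) := Ideal.Quotient.field m
  have hfin : Module.Finite k (A ⧸ m) := finite_of_finite_type_of_isJacobsonRing k (A ⧸ m)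
  have hb : Function.Bijective (algebraMap k (A ⧸ m)) :=
    IsAlgClosed.algebraMap_bijective_of_isIntegral
  let e : k ≃ₐ[k] (A ⧸ m) := AlgEquiv.ofBijective (Algebra.ofId k (A ⧸ m)) hb
  refine ⟨e.symm.toAlgHom.comp (Ideal.Quotient.mkₐ k m), fun a => ?_⟩
  simp only [AlgHom.comp_apply, Ideal.Quotient.mkₐ_eq_mk]
  change e.symm (Ideal.Quotient.mk m a) = 0 ↔ _
  rw [map_eq_zero_iff _ e.symm.injective, Ideal.Quotient.eq_zero_iff_mem]

/-- The module of derivations of a finitely generated algebra is finitely generated. -/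
theorem finite_derivation (k A : Type*) [CommRing k] [CommRing A] [Algebra k A]
    [Algebra.FiniteType k A] [IsNoetherianRing A] : Module.Finite A (Derivation k A A) := by
  classical
  obtain ⟨s, hs⟩ := Algebra.FiniteType.out (R := k) (A := A)
  let Φ : Derivation k A A →ₗ[A] (s → A) :=
    { toFun := fun D x => D x
      map_add' := fun _ _ => rfl
      map_smul' := fun _ _ => rfl }
  have hΦ : Function.Injective Φ := by
    intro D1 D2 h
    have hEq : Set.EqOn D1 D2 (Algebra.adjoin k (s : Set A)) :=
      Derivation.eqOn_adjoin (fun x hx => congrFun h ⟨x, hx⟩)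
    ext a
    exact hEq (by rw [hs]; exact Algebra.mem_top)
  exact Module.Finite.of_injective Φ hΦ

end Null

section Forms

variable {A R M : Type*} [CommRing A] [CommRing R] [Algebra A R] [AddCommGroup M] [Module A M]
  [Module.Finite A M]

/-- Clearing the denominators of a linear form with values in a localization. -/
theorem exists_linear_form (S : Submonoid A) [IsLocalization S R] (hS : S ≤ nonZeroDivisors A)
    (ψ : M →ₗ[A] R) :
    ∃ s ∈ S, ∃ ω : M →ₗ[A] A, ∀ x, algebraMap A R (ω x) = algebraMap A R s * ψ x := by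
  classical
  have hinj : Function.Injective (algebraMap A R) := IsLocalization.injective R hS
  obtain ⟨gens, hgens⟩ := (inferInstance : Module.Finite A M).1
  have hg : ∀ x : M, ∃ t ∈ S, ∃ a, algebraMap A R t * ψ x = algebraMap A R a := by
    intro x
    obtain ⟨a, t, ht⟩ := IsLocalization.exists_mk'_eq S (ψ x)
    exact ⟨t, t.2, a, by rw [← ht, mul_comm, IsLocalization.mk'_spec]⟩
  choose t ht a ha using hg
  let s : A := ∏ x ∈ gens, t x
  have hsS : s ∈ S := S.prod_mem (fun x _ => ht x)
  have hmem : ∀ x : M, ∃ b, algebraMap A R b = algebraMap A R s * ψ x := by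
    intro x
    have hx : x ∈ Submodule.span A (gens : Set M) := by rw [hgens]; trivial
    induction hx using Submodule.span_induction with
    | mem x hx =>
      obtain ⟨c, hc⟩ : t x ∣ s := Finset.dvd_prod_of_mem t hx
      refine ⟨c * a x, ?_⟩
      rw [map_mul, ← ha x, hc, map_mul]
      ring
    | zero => exact ⟨0, by simp⟩
    | add x y _ _ hx hy =>
      obtain ⟨b1, h1⟩ := hx
      obtain ⟨b2, h2⟩ := hy
      exact ⟨b1 + b2, by rw [map_add, map_add, mul_add, h1, h2]⟩
    | smul c x _ hx =>
      obtain ⟨b, h⟩ := hx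
      refine ⟨c * b, ?_⟩
      rw [map_mul, h, map_smul, Algebra.smul_def]
      ring
  choose f hf using hmem
  refine ⟨s, hsS, ⟨⟨f, fun x y => hinj ?_⟩, fun c x => hinj ?_⟩, hf⟩
  · simp only [map_add, hf]
    ring
  · simp only [RingHom.id_apply, smul_eq_mul, map_mul, hf, map_smul, Algebra.smul_def]
    ring

end Forms

section Key

variable {k A : Type*} [Field k] [CommRing A] [IsDomain A] [Algebra k A] [Algebra.FiniteType k A]

/-- Local freeness of `Der(A)` at `m` forces a power of `w • E` into `m • Der(A)`, for every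
derivation all of whose linear forms vanish at `m`. -/
theorem smul_mem_of_free (m : Ideal A) [hm : m.IsMaximal]
    (hfree : Module.Free (Localization.AtPrime m)
      (LocalizedModule m.primeCompl (Derivation k A A)))
    (E : Derivation k A A)
    (hE : ∀ ω : Derivation k A A →ₗ[A] A, ω E ∈ m) :
    ∃ w, w ∉ m ∧ w • E ∈ (m • ⊤ : Submodule A (Derivation k A A)) := by
  classical
  have hnoeth : IsNoetherianRing A := Algebra.FiniteType.isNoetherianRing k A
  have hfinM : Module.Finite A (Derivation k A A) := finite_derivation k A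
  let R := Localization.AtPrime m
  let M := Derivation k A A
  let N := LocalizedModule m.primeCompl M
  let f : M →ₗ[A] N := LocalizedModule.mkLinearMap m.primeCompl M
  let b := Module.Free.chooseBasis R N
  have hS : m.primeCompl ≤ nonZeroDivisors A := m.primeCompl_le_nonZeroDivisors
  have hrepr : ∀ j, b.repr (f E) j ∈ maximalIdeal R := by
    intro j
    let ψ : M →ₗ[A] R := ((b.coord j).restrictScalars A).comp f
    obtain ⟨s, hs, ω, hω⟩ := exists_linear_form (R := R) m.primeCompl hS ψ
    have h1 := hE ω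
    have h2 : algebraMap A R (ω E) ∈ maximalIdeal R :=
      (IsLocalization.AtPrime.to_map_mem_maximal_iff R m _).mpr h1
    rw [hω] at h2
    have hsu : IsUnit (algebraMap A R s) := IsLocalization.map_units R (⟨s, hs⟩ : m.primeCompl)
    have h3 : ψ E = b.repr (f E) j := rfl
    rw [← h3]
    rcases (maximalIdeal.isMaximal R).isPrime.mem_or_mem h2 with h4 | h4
    · exact absurd hsu ((IsLocalRing.mem_maximalIdeal _).mp h4)
    · exact h4
  have hmem : f E ∈ (maximalIdeal R) • (⊤ : Submodule R N) := by
    rw [← b.sum_repr (f E)]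
    exact Submodule.sum_mem _ (fun j _ => Submodule.smul_mem_smul (hrepr j) trivial)
  have hmaxmap : m.map (algebraMap A R) = maximalIdeal R :=
    Localization.AtPrime.map_eq_maximalIdeal
  have hloc : (m • (⊤ : Submodule A M)).localized' R m.primeCompl f =
      (maximalIdeal R) • (⊤ : Submodule R N) := by
    rw [Submodule.localized'_smul, Submodule.localized'_top, Ideal.localized'_eq_map, hmaxmap]
  rw [← hloc] at hmem
  obtain ⟨Y, hY, s, hs⟩ := hmem
  rw [IsLocalizedModule.mk'_eq_iff] at hs
  have hs' : f Y = f ((s : A) • E) := by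
    rw [hs, map_smul]
    rfl
  obtain ⟨c, hc⟩ := IsLocalizedModule.exists_of_eq (S := m.primeCompl) hs'
  refine ⟨(c : A) * s, ?_, ?_⟩
  · intro h
    rcases hm.isPrime.mem_or_mem h with h' | h'
    · exact c.2 h'
    · exact s.2 h'
  · have h1 : ((c : A) * s) • E = (c : A) • Y := by
      rw [mul_smul]
      exact hc.symm
    rw [h1]
    exact Submodule.smul_mem _ _ hY

/-- If every derivation maps `z` into `m` then `w • E` with `w • E ∈ m • Der(A)` maps `z` into
`m ^ 2`, hence so does `E`. -/
theorem mem_sq_of_smul_mem (m : Ideal A) [hm : m.IsMaximal] (E : Derivation k A A) (w : A)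
    (hw : w ∉ m) (hE : w • E ∈ (m • ⊤ : Submodule A (Derivation k A A))) (z : A)
    (hz : ∀ D : Derivation k A A, D z ∈ m) : E z ∈ m ^ 2 := by
  have h1 : ∀ Y ∈ (m • ⊤ : Submodule A (Derivation k A A)), Y z ∈ m ^ 2 := by
    intro Y hY
    refine Submodule.smul_induction_on hY ?_ ?_
    · intro a ha D _
      rw [Derivation.smul_apply, smul_eq_mul, pow_two]
      exact Ideal.mul_mem_mul ha (hz D)
    · intro x y hx hy
      rw [Derivation.add_apply]
      exact Ideal.add_mem _ hx hy
  have h2 := h1 _ hE
  rw [Derivation.smul_apply, smul_eq_mul] at h2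
  obtain ⟨v, n, hn, hv⟩ := hm.exists_inv hw
  have h3 : E z = (v * (v * w + 2 * n)) * (w * E z) + n ^ 2 * E z := by
    linear_combination (-(E z) * (v * w + n + 1)) * hv
  rw [h3]
  refine Ideal.add_mem _ (Ideal.mul_mem_left _ _ h2) (Ideal.mul_mem_right _ _ ?_)
  exact Ideal.pow_mem_pow hn 2

end Key

end Vale.Agent.Lib.P266
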