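import Vale.Agent.Lib.P266.Global

open Polynomial

namespace Vale.Agent.Lib.P266

section Poly

variable {k A F K : Type*} [Field k] [CharZero k] {d : ℕ}
  [CommRing A] [IsDomain A] [IsIntegrallyClosed A] [IsNoetherianRing A] [Algebra k A]
  [Algebra.FiniteType k A] [Algebra (MvPolynomial (Fin d) k) A]
  [FaithfulSMul (MvPolynomial (Fin d) k) A] [Algebra.IsIntegral (MvPolynomial (Fin d) k) A]
  [Field K] [Algebra A K] [IsFractionRing A K]
  [Algebra k K] [IsScalarTower k A K] [Algebra (MvPolynomial (Fin d) k) K]
  [IsScalarTower (MvPolynomial (Fin d) k) A K]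
  [Field F] [Algebra (MvPolynomial (Fin d) k) F] [IsFractionRing (MvPolynomial (Fin d) k) F]
  [Algebra F K] [IsScalarTower (MvPolynomial (Fin d) k) F K] [FiniteDimensional F K]
  [Algebra.FormallyEtale (MvPolynomial (Fin d) k) K]
  [IsScalarTower k (MvPolynomial (Fin d) k) A]

include k in
/-- A derivation vanishing on the variables of a Noether normalization vanishes. -/
theorem derivation_eq_zero_of_vanish (y : Fin d → A)
    (hPA : ∀ p : MvPolynomial (Fin d) k, algebraMap (MvPolynomial (Fin d) k) A p =
      MvPolynomial.aeval y p)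
    (Θ : Derivation k A A) (h : ∀ i, Θ (y i) = 0) : Θ = 0 := by
  have hT : ∀ p : MvPolynomial (Fin d) k, Θ (algebraMap (MvPolynomial (Fin d) k) A p) = 0 := by
    intro p
    rw [hPA]
    induction p using MvPolynomial.induction_on with
    | C c => simp
    | add p q hp hq => simp [map_add, hp, hq]
    | mul_X p i hp =>
      rw [map_mul, Derivation.leibniz, hp]
      simp [h i]
  ext a
  have hmem := deriv_mem_of_isIntegralElem Θ (⊥ : Ideal A)
    (algebraMap (MvPolynomial (Fin d) k) A)
    (fun n hn h0 => by
      have hn' : (n : A) = algebraMap k A (n : k) := by simp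
      have h1 : algebraMap k A (n : k) = 0 := by rw [← hn']; simpa using h0
      have h2 : (n : k) = 0 := (map_eq_zero_iff _ (algebraMap k A).injective).mp h1
      exact hn (by exact_mod_cast h2))
    (fun x hx => by
      rw [Ideal.mem_bot] at hx ⊢
      rw [hx, map_zero])
    (fun r => by
      rw [hT r]
      exact Ideal.zero_mem _)
    a (Algebra.IsIntegral.isIntegral a)
  simpa using hmem

/-- The trace formula: if `E` maps `y i` to a polynomial without constant term in `y`, the trace of
`ω E` lies in the maximal ideal of the origin. -/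
theorem trace_omega_mem (y : Fin d → A)
    (hPA : ∀ p : MvPolynomial (Fin d) k, algebraMap (MvPolynomial (Fin d) k) A p =
      MvPolynomial.aeval y p)
    (E : Derivation k A A)
    (hE : ∀ i, ∃ p : MvPolynomial (Fin d) k, MvPolynomial.constantCoeff p = 0 ∧
      E (y i) = MvPolynomial.aeval y p)
    (ω : Derivation k A A →ₗ[A] A) :
    ∃ g : MvPolynomial (Fin d) k, MvPolynomial.constantCoeff g = 0 ∧
      Algebra.trace F K (algebraMap A K (ω E)) = algebraMap (MvPolynomial (Fin d) k) F g := by
  classical
  have hAKinj : Function.Injective (algebraMap A K) := IsFractionRing.injective A K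
  have : IsScalarTower k (MvPolynomial (Fin d) k) K := IsScalarTower.of_algebraMap_eq (fun c => by
    rw [IsScalarTower.algebraMap_apply k A K, IsScalarTower.algebraMap_apply k
      (MvPolynomial (Fin d) k) A, ← IsScalarTower.algebraMap_apply (MvPolynomial (Fin d) k) A K])
  have hyK : ∀ j, algebraMap A K (y j) =
      algebraMap (MvPolynomial (Fin d) k) K (MvPolynomial.X j) := by
    intro j
    rw [IsScalarTower.algebraMap_apply (MvPolynomial (Fin d) k) A K, hPA]
    simp
  -- the coordinate derivations on `K`
  have hlift := fun i : Fin d => exists_derivation_lift (k := k)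
    ((Algebra.linearMap (MvPolynomial (Fin d) k) K).compDer (MvPolynomial.pderiv i))
  choose δ hδ using hlift
  have hδ' : ∀ i p, δ i (algebraMap (MvPolynomial (Fin d) k) K p) =
      algebraMap (MvPolynomial (Fin d) k) K (MvPolynomial.pderiv i p) := fun i p => hδ i p
  -- common denominator
  have hcd := fun i : Fin d => exists_common_denominator (δ i) (nonZeroDivisors A) (fun a => by
    obtain ⟨x, b, hb, hx⟩ := IsFractionRing.div_surjective (A := A) (δ i (algebraMap A K a))
    refine ⟨b, hb, x, ?_⟩
    rw [← hx]
    have hb0 : algebraMap A K b ≠ 0 :=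
      (map_ne_zero_iff _ hAKinj).mpr (nonZeroDivisors.ne_zero hb)
    field_simp)
  choose s0 hs0 hs0' using hcd
  let s : A := ∏ i, s0 i
  have hs : s ≠ 0 := Finset.prod_ne_zero_iff.mpr (fun i _ => nonZeroDivisors.ne_zero (hs0 i))
  have hsK : algebraMap A K s ≠ 0 := (map_ne_zero_iff _ hAKinj).mpr hs
  have hD : ∀ i a, ∃ b, algebraMap A K b = (algebraMap A K s • δ i) (algebraMap A K a) := by
    intro i a
    obtain ⟨b, hb⟩ := hs0' i a
    obtain ⟨c, hc⟩ : s0 i ∣ s := Finset.dvd_prod_of_mem s0 (Finset.mem_univ i)
    refine ⟨c * b, ?_⟩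
    rw [Derivation.smul_apply, smul_eq_mul, hc, map_mul, map_mul, ← hb]
    ring
  have hD2 := fun i => exists_derivation_restrict hAKinj (algebraMap A K s • δ i)
    (fun a => by
      obtain ⟨b, hb⟩ := hD i a
      exact ⟨b, hb⟩)
  choose D hDs using hD2
  have hDK : ∀ i a, algebraMap A K (D i a) = algebraMap A K s * δ i (algebraMap A K a) := by
    intro i a
    rw [hDs, Derivation.smul_apply, smul_eq_mul]
  -- value of `D i` on the variables
  have hDy : ∀ i j, D i (y j) = if i = j then s else 0 := by
    intro i j
    apply hAKinj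
    rw [hDK, hyK, hδ', MvPolynomial.pderiv_X]
    by_cases hij : i = j
    · subst hij
      simp
    · rw [if_neg hij, Pi.single_eq_of_ne (Ne.symm hij)]
      simp
  -- the identity of derivations
  have hid : s • E = ∑ i, E (y i) • D i := by
    have h0 : s • E - ∑ i, E (y i) • D i = 0 := by
      apply derivation_eq_zero_of_vanish y hPA
      intro j
      have hsumap : (∑ i, E (y i) • D i) (y j) = ∑ i, E (y i) * D i (y j) := by
        have h1 := map_sum (Derivation.coeFnAddMonoidHom (R := k) (A := A) (M := A))
          (fun i => E (y i) • D i) Finset.univ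
        have h2 : (Derivation.coeFnAddMonoidHom (∑ i, E (y i) • D i)) (y j) =
            (∑ i, Derivation.coeFnAddMonoidHom (E (y i) • D i)) (y j) := congrFun h1 (y j)
        rw [Finset.sum_apply] at h2
        simpa only [Derivation.coeFnAddMonoidHom_apply, Derivation.smul_apply, smul_eq_mul] using h2
      simp only [Derivation.coe_sub, Pi.sub_apply, Derivation.smul_apply, smul_eq_mul, hsumap, hDy]
      simp [mul_comm]
    exact sub_eq_zero.mp h0
  have hid2 : s * ω E = ∑ i, E (y i) * ω (D i) := by
    have := congrArg ω hid
    simpa [map_sum, map_smul, smul_eq_mul] using this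
  -- the integrality of the traces
  have htr := fun i : Fin d => trace_mem_range (F := F) (δ i) (fun p => by
    rw [hδ']
    exact ⟨_, rfl⟩) (D i) s hs (hDK i) ω
  choose g hg using htr
  choose p hp0 hp using hE
  refine ⟨∑ i, p i * g i, ?_, ?_⟩
  · rw [map_sum]
    apply Finset.sum_eq_zero
    intro i _
    rw [map_mul, hp0, zero_mul]
  · have hsum : algebraMap A K (ω E) = ∑ i, (algebraMap (MvPolynomial (Fin d) k) F (p i)) •
        (algebraMap A K (ω (D i)) / algebraMap A K s) := by
      have h1 : algebraMap A K s * algebraMap A K (ω E) =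
          ∑ i, algebraMap A K (E (y i)) * algebraMap A K (ω (D i)) := by
        rw [← map_mul, hid2, map_sum]
        simp only [map_mul]
      have h2 : ∀ i, (algebraMap (MvPolynomial (Fin d) k) F (p i)) •
          (algebraMap A K (ω (D i)) / algebraMap A K s) =
          algebraMap A K (E (y i)) * algebraMap A K (ω (D i)) / algebraMap A K s := by
        intro i
        rw [Algebra.smul_def, ← IsScalarTower.algebraMap_apply, hp i, ← hPA,
          ← IsScalarTower.algebraMap_apply]
        ring
      simp only [h2]
      rw [← Finset.sum_div, ← h1]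
      field_simp
    rw [hsum, map_sum]
    simp only [map_smul, smul_eq_mul, hg, ← map_mul]
    rw [map_sum]

end Poly

end Vale.Agent.Lib.P266
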