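import Vale.Agent.Lib.P266.Main

open IsLocalRing

namespace Vale.Agent.Lib.P266

section Extend

variable {A : Type*} [CommRing A] [Algebra ℂ A]

theorem derivation_sum_apply {ι : Type*} (s : Finset ι) (c : ι → ℂ)
    (D : ι → Derivation ℂ A A) (x : A) :
    (∑ i ∈ s, c i • D i) x = ∑ i ∈ s, c i • D i x := by
  have h1 := map_sum (Derivation.coeFnAddMonoidHom (R := ℂ) (A := A) (M := A))
    (fun i => c i • D i) s
  have h2 : (Derivation.coeFnAddMonoidHom (∑ i ∈ s, c i • D i)) x =
      (∑ i ∈ s, Derivation.coeFnAddMonoidHom (c i • D i)) x := congrFun h1 x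
  rw [Finset.sum_apply] at h2
  simpa only [Derivation.coeFnAddMonoidHom_apply, Derivation.smul_apply] using h2

/-- One more coordinate direction, by Gram-Schmidt. -/
theorem extend_system (q : Ideal A) (ev : A →ₐ[ℂ] ℂ) {k : ℕ} (z : Fin k → A)
    (D : Fin k → Derivation ℂ A A) (hz : ∀ j, z j ∈ q)
    (hD : ∀ i j, ev (D i (z j)) = if i = j then 1 else 0) (z0 : A) (hz0 : z0 ∈ q)
    (h : ∀ z' ∈ q, (∀ i, ev (D i z') = 0) → z' = z0 - ∑ i, ev (D i z0) • z i →
      ∃ D0 : Derivation ℂ A A, ev (D0 z') ≠ 0) :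
    ∃ (z1 : Fin (k + 1) → A) (D1 : Fin (k + 1) → Derivation ℂ A A), (∀ j, z1 j ∈ q) ∧
      ∀ i j, ev (D1 i (z1 j)) = if i = j then 1 else 0 := by
  classical
  set v : Fin k → ℂ := fun i => ev (D i z0) with hv
  set z' : A := z0 - ∑ i, v i • z i with hz'
  have hz'q : z' ∈ q := by
    refine q.sub_mem hz0 (q.sum_mem fun i _ => ?_)
    rw [Algebra.smul_def]
    exact q.mul_mem_left _ (hz i)
  have hDz' : ∀ i, ev (D i z') = 0 := by
    intro i
    have h1 : ev (D i z') = ev (D i z0) - ∑ l, v l * ev (D i (z l)) := by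
      simp [hz', map_sub, map_sum, Derivation.map_smul]
    rw [h1]
    simp [hD, hv]
  obtain ⟨D0, hD0⟩ := h z' hz'q hDz' rfl
  set a : ℂ := ev (D0 z') with ha
  let D2 : Derivation ℂ A A := a⁻¹ • (D0 - ∑ l, ev (D0 (z l)) • D l)
  have hD2z : ∀ j, ev (D2 (z j)) = 0 := by
    intro j
    simp only [D2, Derivation.smul_apply, Derivation.coe_sub, Pi.sub_apply, derivation_sum_apply,
      map_smul, map_sub, map_sum, hD, smul_eq_mul]
    simp
  have hD2z' : ev (D2 z') = 1 := by
    simp only [D2, Derivation.smul_apply, Derivation.coe_sub, Pi.sub_apply, derivation_sum_apply,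
      map_smul, map_sub, map_sum, hDz', smul_eq_mul]
    simp only [mul_zero, Finset.sum_const_zero, sub_zero]
    exact inv_mul_cancel₀ hD0
  refine ⟨Fin.cons z' z, Fin.cons D2 D, ?_, ?_⟩
  · intro j
    refine Fin.cases ?_ (fun j' => ?_) j
    · simpa using hz'q
    · simpa using hz j'
  · intro i j
    refine Fin.cases ?_ (fun i' => ?_) i
    · refine Fin.cases ?_ (fun j' => ?_) j
      · simpa using hD2z'
      · simpa [Fin.succ_ne_zero, (Fin.succ_ne_zero j').symm] using hD2z j'
    · refine Fin.cases ?_ (fun j' => ?_) j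
      · simpa [Fin.succ_ne_zero] using hDz' i'
      · simpa [Fin.succ_inj] using hD i' j'

end Extend

section Final

variable {A : Type*} [CommRing A] [IsDomain A] [IsIntegrallyClosed A] [Algebra ℂ A]
  [Algebra.FiniteType ℂ A]

/-- Main regularity statement. -/
theorem isRegularLocalRing_of_projectable (m : Ideal A) [hm : m.IsMaximal] (q : Ideal A)
    (hq : q ≤ m)
    (hreg : IsRegularLocalRing (Localization.AtPrime m ⧸
      q.map (algebraMap A (Localization.AtPrime m))))
    (hfree : Module.Free (Localization.AtPrime m)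
      (LocalizedModule m.primeCompl (Derivation ℂ A A)))
    (hproj : ∀ z ∈ q, (∀ E : Derivation ℂ A A, IsProjectableAt m E → E z ∈ m ^ 2) → z ∈ m ^ 2) :
    IsRegularLocalRing (Localization.AtPrime m) := by
  classical
  have hnoeth : IsNoetherianRing A := Algebra.FiniteType.isNoetherianRing ℂ A
  obtain ⟨ev, hev⟩ := exists_eval (k := ℂ) m
  -- the key consequence of the trace lemma
  have hF1 : ∀ E, IsProjectableAt m E → ∀ z, (∀ D : Derivation ℂ A A, D z ∈ m) → E z ∈ m ^ 2 := by
    rintro E ⟨d, y, hy, hint, hym, hEy⟩ z hz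
    have hω : ∀ ω : Derivation ℂ A A →ₗ[A] A, ω E ∈ m := fun ω =>
      (hev _).mp (eval_omega_eq_zero y hy hint E hEy ev (fun i => (hev _).mpr (hym i)) ω)
    obtain ⟨w, hw, hwE⟩ := smul_mem_of_free m hfree E hω
    exact mem_sq_of_smul_mem m E w hw hwE z hz
  have hF2 : ∀ z ∈ q, z ∉ m ^ 2 → ∃ D : Derivation ℂ A A, ev (D z) ≠ 0 := by
    intro z hz hzm
    by_contra hcon
    push Not at hcon
    exact hzm (hproj z hz (fun E hE => hF1 E hE z (fun D => (hev _).mp (hcon D))))
  let R := Localization.AtPrime m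
  let ιR := algebraMap A R
  have hmaxmap : m.map (algebraMap A R) = maximalIdeal R :=
    Localization.AtPrime.map_eq_maximalIdeal
  have hmemmax : ∀ a ∈ m, ιR a ∈ maximalIdeal R := fun a ha =>
    (IsLocalization.AtPrime.to_map_mem_maximal_iff R m a).mpr ha
  have hcharR : ∀ n : ℕ, n ≠ 0 → IsUnit (n : R) := by
    intro n hn
    have h1 : (n : R) = algebraMap ℂ R (n : ℂ) := by simp
    rw [h1]
    exact (isUnit_iff_ne_zero.mpr (by exact_mod_cast hn)).map _
  have hetale : Algebra.FormallyEtale A R := Algebra.FormallyEtale.of_isLocalization m.primeCompl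
  have hext : ∀ D : Derivation ℂ A A, ∃ D' : Derivation ℂ R R, ∀ a, D' (ιR a) = ιR (D a) := by
    intro D
    obtain ⟨D', hD'⟩ := exists_derivation_lift (k := ℂ) (P := A) (K := R)
      ((Algebra.linearMap A R).compDer D)
    exact ⟨D', hD'⟩
  -- dimension bound for a system
  have hsystem : ∀ (k : ℕ) (z : Fin k → A) (D : Fin k → Derivation ℂ A A), (∀ j, z j ∈ q) →
      (∀ i j, ev (D i (z j)) = if i = j then 1 else 0) →
      ringKrullDim (R ⧸ Ideal.span (Set.range fun j => ιR (z j))) + (k : WithBot ℕ∞) ≤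
        ringKrullDim R := by
    intro k z D hz hD
    choose D' hD' using fun i => hext (D i)
    apply ringKrullDim_quotient_add_le ℂ k R hcharR (fun j => ιR (z j)) D'
    · intro j
      exact hmemmax _ (hq (hz j))
    · intro i j
      rw [hD']
      have h1 : D i (z j) - (if i = j then 1 else 0) ∈ m := by
        rw [← hev, map_sub, hD]
        by_cases hij : i = j <;> simp [hij]
      have h2 := hmemmax _ h1
      by_cases hij : i = j
      · simpa [hij] using h2
      · simpa [hij] using h2
  have hbound : ∀ (k : ℕ) (z : Fin k → A) (D : Fin k → Derivation ℂ A A), (∀ j, z j ∈ q) →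
      (∀ i j, ev (D i (z j)) = if i = j then 1 else 0) →
      k ≤ (maximalIdeal R).spanFinrank := by
    intro k z D hz hD
    have h1 := hsystem k z D hz hD
    have hle : Ideal.span (Set.range fun j => ιR (z j)) ≤ maximalIdeal R := by
      rw [Ideal.span_le]
      rintro _ ⟨j, rfl⟩
      exact hmemmax _ (hq (hz j))
    have hne : Ideal.span (Set.range fun j => ιR (z j)) ≠ ⊤ := by
      intro h
      rw [h] at hle
      exact (maximalIdeal.isMaximal R).ne_top (top_le_iff.mp hle)
    have _ : Nontrivial (R ⧸ Ideal.span (Set.range fun j => ιR (z j))) :=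
      Ideal.Quotient.nontrivial_iff.mpr hne
    have h2 : (0 : WithBot ℕ∞) ≤ ringKrullDim (R ⧸ Ideal.span (Set.range fun j => ιR (z j))) :=
      ringKrullDim_nonneg_of_nontrivial
    have h3 : (k : WithBot ℕ∞) ≤ ringKrullDim R := by
      calc (k : WithBot ℕ∞) = 0 + (k : WithBot ℕ∞) := (zero_add _).symm
        _ ≤ _ := by gcongr
        _ ≤ _ := h1
    have h4 : (k : WithBot ℕ∞) ≤ ((maximalIdeal R).spanFinrank : WithBot ℕ∞) :=
      h3.trans (ringKrullDim_le_spanFinrank_maximalIdeal R)
    exact_mod_cast h4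
  -- a maximal system
  let P : ℕ → Prop := fun k => ∃ (z : Fin k → A) (D : Fin k → Derivation ℂ A A),
    (∀ j, z j ∈ q) ∧ ∀ i j, ev (D i (z j)) = if i = j then 1 else 0
  have hP0 : P 0 := ⟨Fin.elim0, Fin.elim0, fun j => j.elim0, fun i => i.elim0⟩
  have hmaxk : ∃ k, P k ∧ ¬ P (k + 1) := by
    by_contra hcon
    push Not at hcon
    have hall : ∀ k, P k := by
      intro k
      induction k with
      | zero => exact hP0
      | succ k ih => exact hcon k ih
    obtain ⟨z, D, hz, hD⟩ := hall ((maximalIdeal R).spanFinrank + 1)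
    have := hbound _ z D hz hD
    omega
  obtain ⟨k, ⟨z, D, hz, hD⟩, hnot⟩ := hmaxk
  -- every element of `q` is a combination of the `z j` modulo `m ^ 2`.
  have hcomb : ∀ z0 ∈ q, z0 - ∑ i, ev (D i z0) • z i ∈ m ^ 2 := by
    intro z0 hz0
    by_contra hcon
    apply hnot
    apply extend_system q ev z D hz hD z0 hz0
    intro z' hz'q _ hz'eq
    apply hF2 z' hz'q
    rw [hz'eq]
    exact hcon
  -- the quotient
  let R₂ := R ⧸ q.map (algebraMap A R)
  have hR₂local : IsLocalRing R₂ := hreg.toIsLocalRing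
  have hRnoeth : IsNoetherianRing R :=
    IsLocalization.isNoetherianRing m.primeCompl R hnoeth
  have hR₂noeth : IsNoetherianRing R₂ := inferInstance
  have hqtop : q.map (algebraMap A R) ≠ ⊤ := by
    intro h
    have : Subsingleton R₂ := Ideal.Quotient.subsingleton_iff.mpr h
    exact not_nontrivial R₂ inferInstance
  set zR : Fin k → R := fun j => ιR (z j) with hzR
  have hzq : Ideal.span (Set.range zR) ≤ q.map (algebraMap A R) := by
    rw [Ideal.span_le]
    rintro _ ⟨j, rfl⟩
    exact Ideal.mem_map_of_mem _ (hz j)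
  have hdim1 : ringKrullDim R₂ ≤ ringKrullDim (R ⧸ Ideal.span (Set.range zR)) :=
    ringKrullDim_le_of_surjective (Ideal.Quotient.factor hzq) (Ideal.Quotient.factor_surjective hzq)
  have hdim2 := hsystem k z D hz hD
  obtain ⟨T2, hT2card, hT2span⟩ :=
    Submodule.FG.exists_span_finset_card_eq_spanFinrank
      (IsNoetherian.noetherian (maximalIdeal R₂) : (maximalIdeal R₂).FG)
  let g : R₂ → R := Function.surjInv (Ideal.Quotient.mk_surjective (I := q.map (algebraMap A R)))
  have hg : ∀ x, Ideal.Quotient.mk (q.map (algebraMap A R)) (g x) = x :=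
    Function.surjInv_eq _
  let T : Finset R := T2.image g
  let S : Finset R := Finset.univ.image zR ∪ T
  have hScard : S.card ≤ k + (maximalIdeal R₂).spanFinrank := by
    calc S.card ≤ (Finset.univ.image zR).card + T.card := Finset.card_union_le _ _
      _ ≤ k + T2.card := by
          gcongr
          · exact Finset.card_image_le.trans (by simp)
          · exact Finset.card_image_le
      _ = _ := by rw [hT2card]
  let G : Ideal R := Ideal.span (S : Set R)
  have hGle : G ≤ maximalIdeal R := by
    rw [Ideal.span_le]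
    intro x hx
    rcases Finset.mem_union.mp hx with hx | hx
    · obtain ⟨j, -, rfl⟩ := Finset.mem_image.mp hx
      exact hmemmax _ (hq (hz j))
    · obtain ⟨t, ht, rfl⟩ := Finset.mem_image.mp hx
      rw [SetLike.mem_coe, IsLocalRing.mem_maximalIdeal, mem_nonunits_iff]
      intro hu
      have h1 : IsUnit (Ideal.Quotient.mk (q.map (algebraMap A R)) (g t)) :=
        hu.map _
      rw [hg] at h1
      have h2 : t ∈ maximalIdeal R₂ := by
        rw [← hT2span]
        exact Ideal.subset_span ht
      exact (IsLocalRing.mem_maximalIdeal _).mp h2 h1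
  have hqG : q.map (algebraMap A R) ≤ G ⊔ (maximalIdeal R) • (maximalIdeal R) := by
    rw [Ideal.map_le_iff_le_comap]
    intro z0 hz0
    have h1 := hcomb z0 hz0
    have h2 : ιR (z0 - ∑ i, ev (D i z0) • z i) ∈ (maximalIdeal R) • (maximalIdeal R) := by
      rw [smul_eq_mul, ← pow_two, ← hmaxmap, ← Ideal.map_pow]
      exact Ideal.mem_map_of_mem _ h1
    have h3 : ιR (∑ i, ev (D i z0) • z i) ∈ G := by
      rw [map_sum]
      refine Ideal.sum_mem _ fun i _ => ?_
      rw [Algebra.smul_def, map_mul]
      refine Ideal.mul_mem_left _ _ (Ideal.subset_span ?_)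
      exact Finset.mem_union_left _ (Finset.mem_image.mpr ⟨i, Finset.mem_univ i, rfl⟩)
    have h4 : ιR z0 = ιR (∑ i, ev (D i z0) • z i) + ιR (z0 - ∑ i, ev (D i z0) • z i) := by
      rw [← map_add]
      congr 1
      ring
    rw [Ideal.mem_comap]
    change ιR z0 ∈ _
    rw [h4]
    exact Ideal.add_mem _ (Ideal.mem_sup_left h3) (Ideal.mem_sup_right h2)
  have hmaxle : maximalIdeal R ≤ G ⊔ (maximalIdeal R) • (maximalIdeal R) := by
    intro x hx
    have h1 : Ideal.Quotient.mk (q.map (algebraMap A R)) x ∈ maximalIdeal R₂ :=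
      mk_mem_maximalIdeal _ hqtop x hx
    rw [← hT2span] at h1
    have h2 : Ideal.span (T2 : Set R₂) =
        (Ideal.span (T : Set R)).map (Ideal.Quotient.mk (q.map (algebraMap A R))) := by
      rw [Ideal.map_span]
      congr 1
      ext t
      simp only [T, Finset.coe_image, Set.mem_image, Finset.mem_coe, exists_exists_and_eq_and, hg,
        exists_eq_right]
    change Ideal.Quotient.mk _ x ∈ Ideal.span (T2 : Set R₂) at h1
    rw [h2, Ideal.mem_map_iff_of_surjective _ Ideal.Quotient.mk_surjective] at h1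
    obtain ⟨y, hy, hyx⟩ := h1
    have h3 : x - y ∈ q.map (algebraMap A R) := by
      rw [← Ideal.Quotient.eq]
      exact hyx.symm
    have h4 : y ∈ G := by
      refine Ideal.span_mono ?_ hy
      intro t ht
      exact Finset.mem_union_right _ ht
    have h5 : x = y + (x - y) := by ring
    rw [h5]
    exact Ideal.add_mem _ (Ideal.mem_sup_left h4) (hqG h3)
  have hnak : maximalIdeal R ≤ G :=
    Submodule.le_of_le_smul_of_le_jacobson_bot (IsNoetherian.noetherian _)
      (IsLocalRing.maximalIdeal_le_jacobson _) hmaxle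
  have hmaxG : maximalIdeal R = G := le_antisymm hnak hGle
  have hspan : (maximalIdeal R).spanFinrank ≤ S.card := by
    rw [hmaxG]
    have := Submodule.spanFinrank_span_le_ncard_of_finite (R := R) (s := (S : Set R)) S.finite_toSet
    rwa [Set.ncard_coe_finset] at this
  have hfinal : ((maximalIdeal R).spanFinrank : WithBot ℕ∞) ≤ ringKrullDim R := by
    have h1 : ((maximalIdeal R).spanFinrank : WithBot ℕ∞) ≤
        (((maximalIdeal R₂).spanFinrank : ℕ) : WithBot ℕ∞) + (k : WithBot ℕ∞) := by
      have h2 : (maximalIdeal R).spanFinrank ≤ (maximalIdeal R₂).spanFinrank + k := by omega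
      exact_mod_cast h2
    refine h1.trans ?_
    rw [hreg.spanFinrank_maximalIdeal]
    calc ringKrullDim R₂ + (k : WithBot ℕ∞)
        ≤ ringKrullDim (R ⧸ Ideal.span (Set.range zR)) + (k : WithBot ℕ∞) := by gcongr
      _ ≤ ringKrullDim R := hdim2
  exact IsRegularLocalRing.of_spanFinrank_maximalIdeal_le R hfinal

end Final

end Vale.Agent.Lib.P266
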